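import Vale.Agent.Lib.P309.Prof.Defs
import Vale.Agent.Lib.P309.Stage.Mix

namespace Vale.Agent.Lib.P309

open MeasureTheory ProbabilityTheory Metric Set
open scoped ENNReal

theorem measurable_dirV {K : ℕ} : Measurable (dirV (K := K)) := by
  have h : Measurable (fun x : Vec K => ‖x‖⁻¹ • x) := measurable_norm.inv.smul measurable_id
  exact h

/-- A coordinate of a vector depends measurably on the vector. -/
private theorem measAux_coord {K : ℕ} (i : Fin K) : Measurable (fun γ : Vec K => γ i) :=
  (measurable_pi_apply i).comp (WithLp.measurable_ofLp 2 _)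

theorem measurable_hdV {n m : ℕ} : Measurable (hdV (n := n) (m := m)) := by
  have h : Measurable (fun γ : Vec (n + m) =>
      (WithLp.toLp 2 (fun i : Fin n => γ (Fin.castAdd m i)) : Vec n)) :=
    (WithLp.measurable_toLp 2 _).comp
      (measurable_pi_lambda _ (fun i => measAux_coord (Fin.castAdd m i)))
  exact h

theorem measurable_tlV {n m : ℕ} : Measurable (tlV (n := n) (m := m)) := by
  have h : Measurable (fun γ : Vec (n + m) =>
      (WithLp.toLp 2 (fun j : Fin m => γ (Fin.natAdd n j)) : Vec m)) :=
    (WithLp.measurable_toLp 2 _).comp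
      (measurable_pi_lambda _ (fun j => measAux_coord (Fin.natAdd n j)))
  exact h

/-- The concatenation of two measurable families is measurable. -/
private theorem measAux_append {α β : Type*} [MeasurableSpace α] [MeasurableSpace β] {n m : ℕ}
    {f : α → Fin n → β} {g : α → Fin m → β} (hf : Measurable f) (hg : Measurable g) :
    Measurable (fun a => Fin.append (f a) (g a)) := by
  refine measurable_pi_lambda _ (fun k => ?_)
  refine Fin.addCases (fun i => ?_) (fun j => ?_) k
  · have h : (fun a => Fin.append (f a) (g a) (Fin.castAdd m i)) = fun a => f a i := by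
      funext a
      rw [Fin.append_left]
    rw [h]
    exact (measurable_pi_apply i).comp hf
  · have h : (fun a => Fin.append (f a) (g a) (Fin.natAdd n j)) = fun a => g a j := by
      funext a
      rw [Fin.append_right]
    rw [h]
    exact (measurable_pi_apply j).comp hg

theorem measurable_glueV {n m : ℕ} :
    Measurable (fun p : Vec n × Vec m => glueV p.1 p.2) := by
  have hf : Measurable (fun p : Vec n × Vec m => fun i : Fin n => p.1 i) :=
    measurable_pi_lambda _ (fun i => (measAux_coord i).comp measurable_fst)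
  have hg : Measurable (fun p : Vec n × Vec m => fun j : Fin m => p.2 j) :=
    measurable_pi_lambda _ (fun j => (measAux_coord j).comp measurable_snd)
  have h : Measurable (fun p : Vec n × Vec m =>
      (WithLp.toLp 2 (Fin.append (fun i : Fin n => p.1 i) (fun j : Fin m => p.2 j)) :
        Vec (n + m))) :=
    (WithLp.measurable_toLp 2 _).comp (measAux_append hf hg)
  exact h

theorem measurable_rsV {n m : ℕ} :
    Measurable (fun p : Vec (n + m) × Vec m => rsV p.1 p.2) := by
  have h : Measurable (fun p : Vec (n + m) × Vec m =>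
      glueV (hdV p.1) (‖tlV p.1‖ • dirV p.2)) :=
    measurable_glueV.comp ((measurable_hdV.comp measurable_fst).prodMk
      ((measurable_tlV.comp measurable_fst).norm.smul (measurable_dirV.comp measurable_snd)))
  exact h

theorem measurable_rowCo {d K : ℕ} (c : Fin K → Vec d) : Measurable (rowCo c) := by
  have h : Measurable (fun x : Vec d =>
      (WithLp.toLp 2 (fun l : Fin K => inner ℝ (c l) x) : Vec K)) :=
    (WithLp.measurable_toLp 2 _).comp
      (measurable_pi_lambda _ (fun l => measurable_const.inner measurable_id))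
  exact h

theorem measurable_rowFr {d n m : ℕ} (c : Fin (n + m) → Vec d) :
    Measurable (fun p : (Fin n → Vec d) × (Fin m → Vec (n + m)) => rowFr c p.1 p.2) := by
  have hf : Measurable (fun p : (Fin n → Vec d) × (Fin m → Vec (n + m)) =>
      fun j : Fin n => rowCo c (p.1 j)) :=
    measurable_pi_lambda _ (fun j =>
      (measurable_rowCo c).comp ((measurable_pi_apply j).comp measurable_fst))
  have hg : Measurable (fun p : (Fin n → Vec d) × (Fin m → Vec (n + m)) => p.2) :=
    measurable_snd
  have h : Measurable (fun p : (Fin n → Vec d) × (Fin m → Vec (n + m)) =>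
      gsN (Fin.append (fun j : Fin n => rowCo c (p.1 j)) p.2)) :=
    measurable_gsN.comp (measAux_append hf hg)
  exact h

/-- The combination map is jointly measurable. -/
theorem measurable_mix_pair {d K : ℕ} :
    Measurable (fun p : Vec K × (Fin K → Vec d) => mix p.1 p.2) :=
  measurable_mix

theorem measurable_subPt {d K : ℕ} (s₀ : Sph d) (c : Fin K → Vec d) (z : Vec d) (r : ℝ) :
    Measurable (subPt s₀ c z r) := by
  have h : Measurable (fun γ : Vec K => dirS s₀ (z + r • mix (dirV γ) c)) :=
    (measurable_dirS s₀).comp (measurable_const.add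
      ((measurable_mix.comp (measurable_dirV.prodMk measurable_const)).const_smul r))
  exact h

/-- The point of the subsphere with coordinates `mix γ e`, jointly in `γ` and the frame `e`. -/
theorem measurable_subPt_mix {d K : ℕ} (s₀ : Sph d) (c : Fin K → Vec d) (z : Vec d) (r : ℝ) :
    Measurable (fun p : Vec K × (Fin K → Vec K) => subPt s₀ c z r (mix p.1 p.2)) :=
  (measurable_subPt s₀ c z r).comp measurable_mix

/-- The resampled point, jointly in the rows, the auxiliary vectors, the coordinates and the
resampling vector. -/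
theorem measurable_subPt_rs {d n m : ℕ} (s₀ : Sph d) (c : Fin (n + m) → Vec d) (z : Vec d)
    (r : ℝ) :
    Measurable (fun p : ((Fin n → Vec d) × (Fin m → Vec (n + m))) × (Vec (n + m) × Vec m) =>
      subPt s₀ c z r (mix (rsV p.2.1 p.2.2) (rowFr c p.1.1 p.1.2))) := by
  have h1 : Measurable (fun p : ((Fin n → Vec d) × (Fin m → Vec (n + m))) ×
      (Vec (n + m) × Vec m) => rsV p.2.1 p.2.2) :=
    measurable_rsV.comp measurable_snd
  have h2 : Measurable (fun p : ((Fin n → Vec d) × (Fin m → Vec (n + m))) ×
      (Vec (n + m) × Vec m) => rowFr c p.1.1 p.1.2) :=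
    (measurable_rowFr c).comp measurable_fst
  have h3 : Measurable (fun p : ((Fin n → Vec d) × (Fin m → Vec (n + m))) ×
      (Vec (n + m) × Vec m) => mix (rsV p.2.1 p.2.2) (rowFr c p.1.1 p.1.2)) :=
    measurable_mix.comp (h1.prodMk h2)
  exact (measurable_subPt s₀ c z r).comp h3

/-- The resampling average is jointly measurable. -/
theorem measurable_rsAvg {d n m : ℕ} (s₀ : Sph d) (c : Fin (n + m) → Vec d) (z : Vec d) (r : ℝ)
    (Γ : Sph d → ℝ≥0∞) (hΓ : Measurable Γ) :
    Measurable (fun p : ((Fin n → Vec d) × (Fin m → Vec (n + m))) × Vec (n + m) =>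
      rsAvg s₀ c z r Γ p.1.1 p.1.2 p.2) := by
  have hre : Measurable (fun u : (((Fin n → Vec d) × (Fin m → Vec (n + m))) × Vec (n + m))
      × Vec m => ((u.1.1, (u.1.2, u.2)) :
        ((Fin n → Vec d) × (Fin m → Vec (n + m))) × (Vec (n + m) × Vec m))) :=
    (measurable_fst.comp measurable_fst).prodMk
      ((measurable_snd.comp measurable_fst).prodMk measurable_snd)
  have h4 := (measurable_subPt_rs s₀ c z r).comp hre
  have hf : Measurable (fun u : (((Fin n → Vec d) × (Fin m → Vec (n + m))) × Vec (n + m))
      × Vec m => Γ (subPt s₀ c z r (mix (rsV u.1.2 u.2) (rowFr c u.1.1.1 u.1.1.2)))) := by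
    have h5 := hΓ.comp h4
    simpa only [Function.comp_def] using h5
  have hg := hf.lintegral_prod_right' (ν := stdGaussian (Vec m))
  simpa only [rsAvg] using hg

theorem rsAvg_le_one {d n m : ℕ} (s₀ : Sph d) (c : Fin (n + m) → Vec d) (z : Vec d) (r : ℝ)
    (Γ : Sph d → ℝ≥0∞) (hΓ1 : ∀ s, Γ s ≤ 1) (X : Fin n → Vec d) (h : Fin m → Vec (n + m))
    (γ : Vec (n + m)) : rsAvg s₀ c z r Γ X h γ ≤ 1 := by
  unfold rsAvg
  calc ∫⁻ q, Γ (subPt s₀ c z r (mix (rsV γ q) (rowFr c X h))) ∂(stdGaussian (Vec m))
      ≤ ∫⁻ _ : Vec m, (1 : ℝ≥0∞) ∂(stdGaussian (Vec m)) := lintegral_mono (fun q => hΓ1 _)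
    _ = 1 := by rw [lintegral_one, measure_univ]

end Vale.Agent.Lib.P309
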