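import Vale.Agent.Lib.P309.Geo.Basic
import Vale.Agent.Lib.P309.Multi.GramSchmidt
import Vale.Agent.Lib.P309.Stage.Defs

namespace Vale.Agent.Lib.P309

open MeasureTheory ProbabilityTheory Metric Set
open scoped ENNReal

/-- The normalised vector `x / ‖x‖` of `ℝ^K` (the origin is sent to the origin). -/
noncomputable def dirV {K : ℕ} (x : Vec K) : Vec K := ‖x‖⁻¹ • x

/-- The point of the round subsphere with frame `c`, centre `z` and radius `r` that has the
coordinate vector `γ`: the point `z + r • ∑ l, (γ l / ‖γ‖) • c l`, as a point of the sphere. -/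
noncomputable def subPt {d K : ℕ} (s₀ : Sph d) (c : Fin K → Vec d) (z : Vec d) (r : ℝ)
    (γ : Vec K) : Sph d :=
  dirS s₀ (z + r • mix (dirV γ) c)

/-- The average of `Γ` over the round subsphere with frame `c`, centre `z` and radius `r`
(the coordinate vector is standard Gaussian, so that its direction is uniform). -/
noncomputable def subAvg {d K : ℕ} (s₀ : Sph d) (Γ : Sph d → ℝ≥0∞) (c : Fin K → Vec d)
    (z : Vec d) (r : ℝ) : ℝ≥0∞ :=
  ∫⁻ γ, Γ (subPt s₀ c z r γ) ∂(stdGaussian (Vec K))

/-- The data of a round subsphere of the unit sphere: an orthonormal frame `c`, a centre `z`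
orthogonal to the frame and a radius `r > 0` with `‖z‖^2 + r^2 = 1`. -/
structure IsSub {d K : ℕ} (c : Fin K → Vec d) (z : Vec d) (r : ℝ) : Prop where
  on : Orthonormal ℝ c
  orth : ∀ l, inner ℝ (c l) z = 0
  pos : 0 < r
  unit : ‖z‖ ^ 2 + r ^ 2 = 1

/-- `Γ` has radial profile `φ` from dimension `K₀` on: its average over every round subsphere
with at least `K₀` frame vectors and radius `r` is at most `φ r`. -/
def ProfLe {d : ℕ} (s₀ : Sph d) (Γ : Sph d → ℝ≥0∞) (K₀ : ℕ) (φ : ℝ → ℝ≥0∞) : Prop :=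
  ∀ (K : ℕ), K₀ ≤ K → ∀ (c : Fin K → Vec d) (z : Vec d) (r : ℝ), IsSub c z r →
    subAvg s₀ Γ c z r ≤ φ r

/-- The radial profile `A / ρ^D + τ`. -/
noncomputable def profFn (D : ℕ) (A τ : ℝ≥0∞) (ρ : ℝ) : ℝ≥0∞ :=
  A * ((ENNReal.ofReal ρ)⁻¹) ^ D + τ

/-- The first `n` coordinates of a vector of `ℝ^(n+m)`. -/
noncomputable def hdV {n m : ℕ} (γ : Vec (n + m)) : Vec n :=
  WithLp.toLp 2 (fun i : Fin n => γ (Fin.castAdd m i))

/-- The last `m` coordinates of a vector of `ℝ^(n+m)`. -/
noncomputable def tlV {n m : ℕ} (γ : Vec (n + m)) : Vec m :=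
  WithLp.toLp 2 (fun j : Fin m => γ (Fin.natAdd n j))

/-- The vector of `ℝ^(n+m)` with first coordinates `a` and last coordinates `b`. -/
noncomputable def glueV {n m : ℕ} (a : Vec n) (b : Vec m) : Vec (n + m) :=
  WithLp.toLp 2 (Fin.append (fun i : Fin n => a i) (fun j : Fin m => b j))

/-- Resampling of the last `m` coordinates: the first `n` coordinates of `γ` are kept, and the
last `m` coordinates are replaced by the vector of the same norm in the direction of `q`. -/
noncomputable def rsV {n m : ℕ} (γ : Vec (n + m)) (q : Vec m) : Vec (n + m) :=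
  glueV (hdV γ) (‖tlV γ‖ • dirV q)

/-- The coordinates of `x` along the frame `c`. -/
noncomputable def rowCo {d K : ℕ} (c : Fin K → Vec d) (x : Vec d) : Vec K :=
  WithLp.toLp 2 (fun l : Fin K => inner ℝ (c l) x)

/-- The orthonormal frame of `ℝ^(n+m)` adapted to the rows `X`: the Gram-Schmidt family of the
coordinate vectors of the `n` rows along the frame `c`, followed by `m` auxiliary vectors `h`. -/
noncomputable def rowFr {d n m : ℕ} (c : Fin (n + m) → Vec d) (X : Fin n → Vec d)
    (h : Fin m → Vec (n + m)) : Fin (n + m) → Vec (n + m) :=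
  gsN (Fin.append (fun j : Fin n => rowCo c (X j)) h)

/-- The frame of `ℝ^(n+m)` made of the first `n` coordinate vectors followed by the vectors of
`O` placed in the last `m` coordinates. -/
noncomputable def blkFr {n m : ℕ} (O : Fin m → Vec m) : Fin (n + m) → Vec (n + m) :=
  Fin.append (fun i : Fin n => (EuclideanSpace.single (Fin.castAdd m i) (1 : ℝ) : Vec (n + m)))
    (fun j : Fin m => glueV (0 : Vec n) (O j))

/-- The average of `Γ` over the resampling of the last coordinates: the coordinate vector `γ`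
in the frame adapted to the rows is replaced by `rsV γ q` with `q` standard Gaussian. -/
noncomputable def rsAvg {d n m : ℕ} (s₀ : Sph d) (c : Fin (n + m) → Vec d) (z : Vec d) (r : ℝ)
    (Γ : Sph d → ℝ≥0∞) (X : Fin n → Vec d) (h : Fin m → Vec (n + m)) (γ : Vec (n + m)) : ℝ≥0∞ :=
  ∫⁻ q, Γ (subPt s₀ c z r (mix (rsV γ q) (rowFr c X h))) ∂(stdGaussian (Vec m))

/-- The additive term of the radial profile after `i` stages. -/
noncomputable def profT (M E N i : ℕ) : ℝ≥0∞ :=
  (i : ℝ≥0∞) * (2 : ℝ≥0∞) ^ (i * E) * ((2 : ℝ≥0∞) ^ (M + 1) * ((2 : ℝ≥0∞) ^ (E * N))⁻¹)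

end Vale.Agent.Lib.P309
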