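import Vale.Agent.Lib.P309.Multi.Unique
import Vale.Agent.Lib.P309.Prof.Defs
import Vale.Agent.Lib.P309.Stage.Mix

namespace Vale.Agent.Lib.P309

open MeasureTheory ProbabilityTheory Metric Set
open scoped ENNReal

/-- The mixing map along an orthonormal basis is the inverse of the coordinate isometry. -/
lemma gaussIso_mix_eq {K : ℕ} (e : Fin K → Vec K) (b : OrthonormalBasis (Fin K) ℝ (Vec K))
    (hb : ∀ s : Fin K, b s = e s) (γ : Vec K) :
    mix γ e = b.repr.symm γ := by
  unfold mix
  rw [← OrthonormalBasis.sum_repr_symm]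
  exact Finset.sum_congr rfl (fun j _ => by rw [hb j])

/-- The standard Gaussian measure is invariant under the change of coordinates to an orthonormal
frame of `K` vectors of `ℝ^K`. -/
theorem lintegral_gauss_mix {K : ℕ} (e : Fin K → Vec K) (he : Orthonormal ℝ e)
    (F : Vec K → ℝ≥0∞) (hF : Measurable F) :
    ∫⁻ γ, F (mix γ e) ∂(stdGaussian (Vec K)) = ∫⁻ γ, F γ ∂(stdGaussian (Vec K)) := by
  obtain ⟨b, hb⟩ := frmU_exists_basis (le_refl K) he
  have hb' : ∀ s : Fin K, b s = e s := by
    intro s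
    have h1 := hb s
    have h2 : Fin.castLE (le_refl K) s = s := Fin.ext rfl
    rw [h2] at h1
    exact h1
  let O : Vec K ≃ₗᵢ[ℝ] Vec K := b.repr.symm
  have hO : (stdGaussian (Vec K)).map O = stdGaussian (Vec K) := stdGaussian_map O
  have hmO : Measurable (O : Vec K → Vec K) := O.continuous.measurable
  have h1 : ∫⁻ γ, F (mix γ e) ∂(stdGaussian (Vec K))
      = ∫⁻ γ, F (O γ) ∂(stdGaussian (Vec K)) := by
    apply lintegral_congr
    intro γ
    rw [gaussIso_mix_eq e b hb' γ]
  rw [h1, ← lintegral_map hF hmO, hO]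

/-- The coordinates along the frame `c` of the vector with coordinates `ξ`. -/
lemma gaussIso_rowCo_toLp {d K : ℕ} (c : Fin K → Vec d) (ξ : Fin d → ℝ) :
    rowCo c (WithLp.toLp 2 ξ) = WithLp.toLp 2 (fun l : Fin K => ∑ j, c l j * ξ j) := by
  unfold rowCo
  congr 1
  funext l
  rw [PiLp.inner_apply]
  apply Finset.sum_congr rfl
  intro j _
  simp [mul_comm]

/-- The coordinates of a standard Gaussian vector of `ℝ^d` along an orthonormal family of `K`
vectors form a standard Gaussian vector of `ℝ^K`. -/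
theorem gauss_rowCo {d K : ℕ} (c : Fin K → Vec d) (hc : Orthonormal ℝ c) :
    (stdGaussian (Vec d)).map (rowCo c) = stdGaussian (Vec K) := by
  have hmd : Measurable (WithLp.toLp 2 : (Fin d → ℝ) → Vec d) :=
    WithLp.measurable_toLp 2 (Fin d → ℝ)
  have hmK : Measurable (WithLp.toLp 2 : (Fin K → ℝ) → Vec K) :=
    WithLp.measurable_toLp 2 (Fin K → ℝ)
  have hmU : Measurable (fun ξ : Fin d → ℝ => fun l : Fin K => ∑ j, c l j * ξ j) := by
    fun_prop
  have hmR : Measurable (rowCo c) := by
    have hcont : Continuous (rowCo c) := by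
      unfold rowCo
      fun_prop
    exact hcont.measurable
  have hcomp : rowCo c ∘ (WithLp.toLp 2 : (Fin d → ℝ) → Vec d)
      = (WithLp.toLp 2 : (Fin K → ℝ) → Vec K)
          ∘ (fun ξ : Fin d → ℝ => fun l : Fin K => ∑ j, c l j * ξ j) := by
    funext ξ
    exact gaussIso_rowCo_toLp c ξ
  rw [← map_pi_eq_stdGaussian, Measure.map_map hmR hmd, hcomp, ← Measure.map_map hmK hmU,
    mixaux_column c hc, map_pi_eq_stdGaussian]

end Vale.Agent.Lib.P309
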