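import Vale.Agent.Lib.P309.Prof.Rsb1D

namespace Vale.Agent.Lib.P309

open MeasureTheory ProbabilityTheory Metric Set
open scoped ENNReal

/-- The weights of the Chernoff bound: `exp (x^2 / 4)` on the first `j` coordinates and
`exp (- s x^2)` on the last `k` coordinates. -/
noncomputable def rsbCoordW (j k : ℕ) (s : ℝ) : Fin (j + k) → ℝ → ℝ≥0∞ :=
  Fin.addCases (fun _ x => ENNReal.ofReal (Real.exp (x ^ 2 / 4)))
    (fun _ x => ENNReal.ofReal (Real.exp (-(s * x ^ 2))))

lemma rsbCoordW_left (j k : ℕ) (s : ℝ) (i : Fin j) :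
    rsbCoordW j k s (Fin.castAdd k i) = fun x => ENNReal.ofReal (Real.exp (x ^ 2 / 4)) := by
  unfold rsbCoordW
  exact Fin.addCases_left i

lemma rsbCoordW_right (j k : ℕ) (s : ℝ) (i : Fin k) :
    rsbCoordW j k s (Fin.natAdd j i) = fun x => ENNReal.ofReal (Real.exp (-(s * x ^ 2))) := by
  unfold rsbCoordW
  exact Fin.addCases_right i

lemma rsbCoordW_meas (j k : ℕ) (s : ℝ) (i : Fin (j + k)) : Measurable (rsbCoordW j k s i) := by
  induction i using Fin.addCases with
  | left i =>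
    rw [rsbCoordW_left]
    exact ENNReal.measurable_ofReal.comp
      (Real.measurable_exp.comp ((measurable_id.pow_const 2).div_const 4))
  | right i =>
    rw [rsbCoordW_right]
    exact ENNReal.measurable_ofReal.comp
      (Real.measurable_exp.comp ((measurable_id.pow_const 2).const_mul s).neg)

/-- The product of the weights is the exponential of a difference of sums of squares. -/
lemma rsbCoordW_prod_eq (j k : ℕ) (s : ℝ) (y : Fin (j + k) → ℝ) :
    ∏ i, rsbCoordW j k s i (y i) =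
      ENNReal.ofReal (Real.exp ((∑ i : Fin j, y (Fin.castAdd k i) ^ 2) / 4
        - s * ∑ i : Fin k, y (Fin.natAdd j i) ^ 2)) := by
  rw [Fin.prod_univ_add]
  simp only [rsbCoordW_left, rsbCoordW_right]
  rw [← ENNReal.ofReal_prod_of_nonneg (fun i _ => (Real.exp_pos _).le),
    ← ENNReal.ofReal_prod_of_nonneg (fun i _ => (Real.exp_pos _).le),
    ← ENNReal.ofReal_mul (Finset.prod_nonneg (fun i _ => (Real.exp_pos _).le)),
    ← Real.exp_sum, ← Real.exp_sum, ← Real.exp_add]
  congr 2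
  rw [Finset.sum_div, Finset.mul_sum, sub_eq_add_neg, Finset.sum_neg_distrib]

/-- On the event, the product of the weights is at least one. -/
lemma rsbCoordW_one_le (j k : ℕ) {t : ℝ} (ht : 0 < t) (ht2 : t < 1 / 2) (y : Fin (j + k) → ℝ)
    (hy : ∑ i : Fin k, y (Fin.natAdd j i) ^ 2 ≤ t ^ 2 * ∑ i : Fin (j + k), y i ^ 2) :
    1 ≤ ∏ i, rsbCoordW j k (1 / (8 * t ^ 2)) i (y i) := by
  rw [rsbCoordW_prod_eq, ENNReal.one_le_ofReal]
  apply Real.one_le_exp
  rw [Fin.sum_univ_add] at hy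
  have hA : 0 ≤ ∑ i : Fin k, y (Fin.natAdd j i) ^ 2 :=
    Finset.sum_nonneg (fun i _ => sq_nonneg _)
  have hB : 0 ≤ ∑ i : Fin j, y (Fin.castAdd k i) ^ 2 :=
    Finset.sum_nonneg (fun i _ => sq_nonneg _)
  generalize (∑ i : Fin k, y (Fin.natAdd j i) ^ 2) = A at hy hA ⊢
  generalize (∑ i : Fin j, y (Fin.castAdd k i) ^ 2) = B at hy hB ⊢
  have ht0 : 0 < t ^ 2 := by positivity
  have ht4 : t ^ 2 < 1 / 4 := by nlinarith
  have h1 : A ≤ 2 * t ^ 2 * B := by
    nlinarith [mul_nonneg hA (sub_nonneg.mpr ht4.le), mul_nonneg ht0.le hB]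
  have h2 : 1 / (8 * t ^ 2) * A ≤ B / 4 := by
    rw [div_mul_eq_mul_div, one_mul, div_le_iff₀ (by positivity)]
    nlinarith
  linarith

/-- The mean of a product of functions of independent standard Gaussian coordinates. -/
lemma rsbCoord_lintegral_prod {n : ℕ} (f : Fin n → ℝ → ℝ≥0∞) (hf : ∀ i, Measurable (f i)) :
    ∫⁻ y, ∏ i, f i (y i) ∂(Measure.pi (fun _ : Fin n => gaussianReal 0 1))
      = ∏ i, ∫⁻ x, f i x ∂(gaussianReal 0 1) := by
  have hind : iIndepFun (fun (l : Fin n) (x : Fin n → ℝ) => f l (x l))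
      (Measure.pi (fun _ : Fin n => gaussianReal 0 1)) :=
    iIndepFun_pi (X := f) (fun i => (hf i).aemeasurable)
  have h2 : ∀ l : Fin n, ∫⁻ x, f l (x l) ∂(Measure.pi (fun _ : Fin n => gaussianReal 0 1))
      = ∫⁻ g, f l g ∂(gaussianReal 0 1) := fun l =>
    (measurePreserving_eval (fun _ : Fin n => gaussianReal 0 1) l).lintegral_comp (hf l)
  rw [lintegral_prod_eq_prod_lintegral_of_indepFun Finset.univ _ hind
    (fun l => (hf l).comp (measurable_pi_apply l)), Finset.prod_congr rfl (fun l _ => h2 l)]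

/-- The constant of the Chernoff bound. -/
lemma rsbCoord_const {t : ℝ} (ht : 0 < t) :
    1 / Real.sqrt (2 * (1 / (8 * t ^ 2))) = 2 * t := by
  have h1 : 2 * (1 / (8 * t ^ 2)) = (1 / (2 * t)) ^ 2 := by
    field_simp
    ring
  rw [h1, Real.sqrt_sq (by positivity), one_div_one_div]

/-- Ratio small-ball bound in coordinates: for independent standard real Gaussians
`y 0, …, y (j + k - 1)`, the last `k` coordinates carry at most the fraction `t^2` of the sum of
the squares with probability at most `2^j (2 t)^k`. -/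
theorem ratio_small_ball_coord (j k : ℕ) {t : ℝ} (ht : 0 < t) :
    (Measure.pi (fun _ : Fin (j + k) => gaussianReal 0 1))
        {y : Fin (j + k) → ℝ | ∑ i : Fin k, y (Fin.natAdd j i) ^ 2
          ≤ t ^ 2 * ∑ i : Fin (j + k), y i ^ 2}
      ≤ ENNReal.ofReal (2 ^ j * (2 * t) ^ k) := by
  rcases le_or_gt (1 / 2) t with h | h
  · refine le_trans prob_le_one ?_
    rw [ENNReal.one_le_ofReal]
    have h2 : (1 : ℝ) ≤ 2 * t := by linarith
    exact one_le_mul_of_one_le_of_one_le (one_le_pow₀ (by norm_num)) (one_le_pow₀ h2)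
  · have hs0 : (0 : ℝ) < 1 / (8 * t ^ 2) := by positivity
    have hmeas : ∀ i, Measurable (rsbCoordW j k (1 / (8 * t ^ 2)) i) :=
      rsbCoordW_meas j k (1 / (8 * t ^ 2))
    have hF : Measurable
        (fun y : Fin (j + k) → ℝ => ∏ i, rsbCoordW j k (1 / (8 * t ^ 2)) i (y i)) :=
      Finset.measurable_prod _ (fun i _ => (hmeas i).comp (measurable_pi_apply i))
    have hmark := mul_meas_ge_le_lintegral
      (μ := Measure.pi (fun _ : Fin (j + k) => gaussianReal 0 1)) hF 1
    rw [one_mul, rsbCoord_lintegral_prod _ hmeas, Fin.prod_univ_add] at hmark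
    simp only [rsbCoordW_left, rsbCoordW_right, Finset.prod_const, Finset.card_univ,
      Fintype.card_fin] at hmark
    have hle : (∫⁻ x : ℝ, ENNReal.ofReal (Real.exp (x ^ 2 / 4)) ∂(gaussianReal 0 1)) ^ j *
        (∫⁻ x : ℝ, ENNReal.ofReal (Real.exp (-(1 / (8 * t ^ 2) * x ^ 2))) ∂(gaussianReal 0 1)) ^ k
        ≤ 2 ^ j * (ENNReal.ofReal (2 * t)) ^ k := by
      refine mul_le_mul' (pow_le_pow_left' gauss1d_exp_quarter j) (pow_le_pow_left' ?_ k)
      have h3 := gauss1d_exp_neg hs0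
      rwa [rsbCoord_const ht] at h3
    have hfin : ENNReal.ofReal (2 ^ j * (2 * t) ^ k)
        = (2 : ℝ≥0∞) ^ j * (ENNReal.ofReal (2 * t)) ^ k := by
      rw [ENNReal.ofReal_mul (by positivity : (0 : ℝ) ≤ 2 ^ j),
        ENNReal.ofReal_pow (by norm_num : (0 : ℝ) ≤ 2),
        ENNReal.ofReal_pow (by positivity : (0 : ℝ) ≤ 2 * t), ENNReal.ofReal_ofNat]
    rw [hfin]
    refine le_trans (measure_mono ?_) (le_trans hmark hle)
    intro y hy
    exact rsbCoordW_one_le j k ht h y hy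

end Vale.Agent.Lib.P309
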