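import Vale.Agent.Lib.P309.Prof.Basic
import Vale.Agent.Lib.P309.Prof.GaussIso
import Vale.Agent.Lib.P309.Prof.RsbCoord
import Vale.Agent.Lib.P309.Stage.Transpose

namespace Vale.Agent.Lib.P309

open MeasureTheory ProbabilityTheory Metric Set
open scoped ENNReal

/-- The event of the ratio small-ball bound is closed. -/
theorem rsbRed_closed {a j : ℕ} (u : Fin j → Vec a) (t : ℝ) :
    IsClosed {g : Vec a | ‖g - ∑ l, inner ℝ (u l) g • u l‖ ≤ t * ‖g‖} := by
  refine isClosed_le ?_ ?_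
  · fun_prop
  · fun_prop

/-- The coordinate event of the ratio small-ball bound is closed. -/
theorem rsbRed_closed_coord (j k : ℕ) (t : ℝ) :
    IsClosed {y : Fin (j + k) → ℝ | ∑ i : Fin k, y (Fin.natAdd j i) ^ 2
      ≤ t ^ 2 * ∑ i : Fin (j + k), y i ^ 2} := by
  refine isClosed_le ?_ ?_
  · fun_prop
  · fun_prop

/-- In an orthonormal frame that begins with `u`, the part of a combination orthogonal to `u`
is the combination of the last coordinates. -/
theorem rsbRed_sub {j k : ℕ} (u : Fin j → Vec (j + k)) (e : Fin (j + k) → Vec (j + k))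
    (he : Orthonormal ℝ e) (hue : ∀ l : Fin j, e (Fin.castAdd k l) = u l) (γ : Vec (j + k)) :
    mix γ e - ∑ l, inner ℝ (u l) (mix γ e) • u l
      = mix (tlV γ) (fun i : Fin k => e (Fin.natAdd j i)) := by
  have h1 : ∀ l : Fin j, inner ℝ (u l) (mix γ e) • u l
      = γ (Fin.castAdd k l) • e (Fin.castAdd k l) := by
    intro l
    rw [← hue l, inner_frame_mix he γ (Fin.castAdd k l)]
  have h2 : mix γ e = ∑ l : Fin j, γ (Fin.castAdd k l) • e (Fin.castAdd k l)
      + ∑ i : Fin k, γ (Fin.natAdd j i) • e (Fin.natAdd j i) := by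
    unfold mix
    rw [Fin.sum_univ_add]
  have h3 : mix (tlV γ) (fun i : Fin k => e (Fin.natAdd j i))
      = ∑ i : Fin k, γ (Fin.natAdd j i) • e (Fin.natAdd j i) := by
    unfold mix
    rfl
  rw [h3, Finset.sum_congr rfl (fun l _ => h1 l), h2, add_sub_cancel_left]

/-- Membership in the event of the ratio small-ball bound, in coordinates. -/
theorem rsbRed_iff {j k : ℕ} (u : Fin j → Vec (j + k)) (e : Fin (j + k) → Vec (j + k))
    (he : Orthonormal ℝ e) (hue : ∀ l : Fin j, e (Fin.castAdd k l) = u l) {t : ℝ} (ht : 0 ≤ t)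
    (γ : Vec (j + k)) :
    ‖mix γ e - ∑ l, inner ℝ (u l) (mix γ e) • u l‖ ≤ t * ‖mix γ e‖
      ↔ ∑ i : Fin k, γ (Fin.natAdd j i) ^ 2 ≤ t ^ 2 * ∑ i : Fin (j + k), γ i ^ 2 := by
  have he2 : Orthonormal ℝ (fun i : Fin k => e (Fin.natAdd j i)) :=
    he.comp (Fin.natAdd j) (Fin.natAdd_injective k j)
  rw [rsbRed_sub u e he hue γ, norm_mix he2, norm_mix he]
  have h1 : ‖tlV γ‖ ^ 2 = ∑ i : Fin k, γ (Fin.natAdd j i) ^ 2 := by
    rw [EuclideanSpace.real_norm_sq_eq]
    rfl
  have h2 : ‖γ‖ ^ 2 = ∑ i : Fin (j + k), γ i ^ 2 := EuclideanSpace.real_norm_sq_eq γ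
  rw [← h1, ← h2, ← mul_pow]
  exact (sq_le_sq₀ (norm_nonneg _) (mul_nonneg ht (norm_nonneg _))).symm

/-- The ratio small-ball bound for a positive threshold, in dimension `j + k`. -/
theorem rsbRed_pos {j k : ℕ} (u : Fin j → Vec (j + k)) (hu : Orthonormal ℝ u) {t : ℝ}
    (ht : 0 < t) :
    stdGaussian (Vec (j + k))
        {g : Vec (j + k) | ‖g - ∑ l, inner ℝ (u l) g • u l‖ ≤ t * ‖g‖}
      ≤ ENNReal.ofReal (2 ^ j * (2 * t) ^ k) := by
  obtain ⟨β, hβ⟩ := frmU_exists_basis (Nat.le_add_right j k) hu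
  have he : Orthonormal ℝ (fun i : Fin (j + k) => β i) := β.orthonormal
  have hue : ∀ l : Fin j, β (Fin.castAdd k l) = u l := fun l => hβ l
  have hS : MeasurableSet {g : Vec (j + k) | ‖g - ∑ l, inner ℝ (u l) g • u l‖ ≤ t * ‖g‖} :=
    (rsbRed_closed u t).measurableSet
  have hT : MeasurableSet {y : Fin (j + k) → ℝ | ∑ i : Fin k, y (Fin.natAdd j i) ^ 2
      ≤ t ^ 2 * ∑ i : Fin (j + k), y i ^ 2} :=
    (rsbRed_closed_coord j k t).measurableSet
  have hcoord : Measurable (fun (x : Vec (j + k)) (c : Fin (j + k)) => x c) :=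
    WithLp.measurable_ofLp 2 (Fin (j + k) → ℝ)
  have h1 := lintegral_gauss_mix (fun i : Fin (j + k) => β i) he
    ({g : Vec (j + k) | ‖g - ∑ l, inner ℝ (u l) g • u l‖ ≤ t * ‖g‖}.indicator 1)
    (measurable_one.indicator hS)
  rw [lintegral_indicator_one hS] at h1
  have h2 : ∀ γ : Vec (j + k),
      ({g : Vec (j + k) | ‖g - ∑ l, inner ℝ (u l) g • u l‖ ≤ t * ‖g‖}.indicator
          (1 : Vec (j + k) → ℝ≥0∞)) (mix γ (fun i : Fin (j + k) => β i))
        = (((fun (x : Vec (j + k)) (c : Fin (j + k)) => x c) ⁻¹'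
            {y : Fin (j + k) → ℝ | ∑ i : Fin k, y (Fin.natAdd j i) ^ 2
              ≤ t ^ 2 * ∑ i : Fin (j + k), y i ^ 2}).indicator
          (1 : Vec (j + k) → ℝ≥0∞)) γ := by
    intro γ
    have hiff := rsbRed_iff u (fun i : Fin (j + k) => β i) he hue ht.le γ
    by_cases hγ : ∑ i : Fin k, γ (Fin.natAdd j i) ^ 2 ≤ t ^ 2 * ∑ i : Fin (j + k), γ i ^ 2
    · rw [Set.indicator_of_mem (show mix γ (fun i : Fin (j + k) => β i) ∈ _ from hiff.mpr hγ),
        Set.indicator_of_mem (show γ ∈ _ from hγ)]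
      rfl
    · rw [Set.indicator_of_notMem (show mix γ (fun i : Fin (j + k) => β i) ∉ _ from
          fun h => hγ (hiff.mp h)),
        Set.indicator_of_notMem (show γ ∉ _ from hγ)]
  rw [lintegral_congr h2, lintegral_indicator_one (hcoord hT)] at h1
  rw [← h1, ← Measure.map_apply hcoord hT, gtrans_coord]
  exact ratio_small_ball_coord j k ht

/-- Ratio small-ball bound.  For a standard Gaussian vector `g` of `ℝ^a` and an orthonormal
family `u` of `j` vectors, the part of `g` orthogonal to `u` has norm at most `t ‖g‖` with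
probability at most `2^j (2 t)^(a - j)`. -/
theorem ratio_small_ball {a j : ℕ} (u : Fin j → Vec a) (hu : Orthonormal ℝ u) {t : ℝ}
    (ht : 0 ≤ t) :
    stdGaussian (Vec a) {g : Vec a | ‖g - ∑ l, inner ℝ (u l) g • u l‖ ≤ t * ‖g‖}
      ≤ ENNReal.ofReal (2 ^ j * (2 * t) ^ (a - j)) := by
  have hja : j ≤ a := by
    have h := hu.linearIndependent.fintype_card_le_finrank
    simpa using h
  obtain ⟨k, rfl⟩ := Nat.exists_eq_add_of_le hja
  rw [Nat.add_sub_cancel_left]
  rcases ht.lt_or_eq with hpos | h0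
  · exact rsbRed_pos u hu hpos
  · subst h0
    have hlim : Filter.Tendsto (fun s : ℝ => ENNReal.ofReal (2 ^ j * (2 * s) ^ k))
        (nhdsWithin 0 (Set.Ioi 0)) (nhds (ENNReal.ofReal (2 ^ j * (2 * 0) ^ k))) := by
      have hc : Continuous (fun s : ℝ => ENNReal.ofReal (2 ^ j * (2 * s) ^ k)) :=
        ENNReal.continuous_ofReal.comp (by fun_prop)
      exact hc.continuousAt.tendsto.mono_left nhdsWithin_le_nhds
    refine ge_of_tendsto hlim ?_
    filter_upwards [self_mem_nhdsWithin] with s hs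
    refine le_trans (measure_mono ?_) (rsbRed_pos u hu hs)
    intro g hg
    have hg' : ‖g - ∑ l, inner ℝ (u l) g • u l‖ ≤ 0 * ‖g‖ := hg
    have hs' : (0 : ℝ) < s := hs
    show ‖g - ∑ l, inner ℝ (u l) g • u l‖ ≤ s * ‖g‖
    calc ‖g - ∑ l, inner ℝ (u l) g • u l‖ ≤ 0 * ‖g‖ := hg'
      _ ≤ s * ‖g‖ := by
        rw [zero_mul]
        exact mul_nonneg hs'.le (norm_nonneg _)

end Vale.Agent.Lib.P309
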