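import Vale.Agent.Lib.P309.Cap
import Vale.Agent.Lib.P309.Multi.GaussDir
import Vale.Agent.Lib.P309.Multi.Main
import Vale.Agent.Lib.P309.Prof.Meas
import Vale.Agent.Lib.P309.Prof.Rsb

namespace Vale.Agent.Lib.P309

open MeasureTheory ProbabilityTheory Metric Set
open scoped ENNReal

variable {d M : ℕ}

/-- With no further sample, the decoding probability is the mass that the output kernel gives
to the good outputs. -/
theorem phiBar_zero (L : Learner d M) (t : ℕ) (ε : ℝ) (p : St M) (s : Sph d) :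
    phiBar L t 0 ε p s = L.out p.1 (goodOutputs d ε s) := by
  have h1 : ∀ z : ℕ → Vec d × ℝ, L.decLaw t 0 z p = L.out p.1 := by
    intro z
    unfold Learner.decLaw
    have h0 : L.contFrom t z 0 p = Measure.dirac p := rfl
    rw [h0, Measure.map_dirac' measurable_fst, Measure.dirac_bind L.out.measurable]
  unfold phiBar phiW
  simp only [h1]
  rw [lintegral_const, goodOutputs_eq]
  simp

/-- The coordinate vector along an orthonormal frame is no longer than the vector. -/
theorem capPC_norm_rowCo_le {K : ℕ} {c : Fin K → Vec d} (hc : Orthonormal ℝ c) (x : Vec d) :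
    ‖rowCo c x‖ ≤ ‖x‖ := by
  have h1 : ‖rowCo c x‖ ^ 2 = ∑ l : Fin K, ‖inner ℝ (c l) x‖ ^ 2 := by
    rw [EuclideanSpace.norm_sq_eq]
    rfl
  have h2 : ∑ l : Fin K, ‖inner ℝ (c l) x‖ ^ 2 ≤ ‖x‖ ^ 2 := by
    have := hc.sum_inner_products_le (s := Finset.univ) x
    exact this
  have h3 : ‖rowCo c x‖ ^ 2 ≤ ‖x‖ ^ 2 := by rw [h1]; exact h2
  exact le_of_sq_le_sq h3 (norm_nonneg x)

/-- The coordinates of the difference of a subsphere point and a vector. -/
theorem capPC_rowCo_sub {K : ℕ} {c : Fin K → Vec d} {z : Vec d} {r : ℝ} (hsub : IsSub c z r)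
    (y : Vec K) (v : Vec d) :
    rowCo c (z + r • mix y c - v) = r • y - rowCo c v := by
  ext l
  have h1 : inner ℝ (c l) (z + r • mix y c - v)
      = inner ℝ (c l) z + r * inner ℝ (c l) (mix y c) - inner ℝ (c l) v := by
    rw [inner_sub_right, inner_add_right, inner_smul_right]
  have h2 : inner ℝ (c l) (mix y c) = y l := inner_frame_mix hsub.on y l
  have h3 : inner ℝ (c l) z = 0 := hsub.orth l
  simp only [rowCo, PiLp.sub_apply, PiLp.smul_apply, smul_eq_mul]
  rw [h1, h2, h3]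
  ring

/-- The orthogonal projection on a line is the closest point of the line. -/
theorem capPC_proj_le {K : ℕ} (u g : Vec K) (hu : ‖u‖ = 1) (a : ℝ) :
    ‖g - inner ℝ u g • u‖ ≤ ‖g - a • u‖ := by
  have h1 : ‖g - inner ℝ u g • u‖ ^ 2 = ‖g‖ ^ 2 - (inner ℝ u g) ^ 2 := by
    rw [norm_sub_sq_real, inner_smul_right, norm_smul, hu, real_inner_comm g u]
    simp only [Real.norm_eq_abs, mul_one, sq_abs]
    ring
  have h2 : ‖g - a • u‖ ^ 2 = ‖g‖ ^ 2 - 2 * a * inner ℝ u g + a ^ 2 := by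
    rw [norm_sub_sq_real, inner_smul_right, norm_smul, hu, real_inner_comm g u]
    simp only [Real.norm_eq_abs, mul_one, sq_abs]
    ring
  have h3 : ‖g - inner ℝ u g • u‖ ^ 2 ≤ ‖g - a • u‖ ^ 2 := by
    rw [h1, h2]
    nlinarith [sq_nonneg (a - inner ℝ u g)]
  exact le_of_sq_le_sq h3 (norm_nonneg _)

/-- The geometric core of the cap bound: a nonzero coordinate vector whose point is within
angle `ε` of `v` is close to the line spanned by the coordinates of `v`. -/
theorem capPC_core {K : ℕ} (s₀ : Sph d) {c : Fin K → Vec d} {z : Vec d} {r : ℝ}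
    (hsub : IsSub c z r) {ε : ℝ} (v : Sph d) {γ : Vec K} (hγ : γ ≠ 0)
    (h : InnerProductGeometry.angle (v : Vec d) (subPt s₀ c z r γ : Vec d) ≤ ε) :
    ‖dirV γ - r⁻¹ • rowCo c (v : Vec d)‖ ≤ ε / r := by
  have hr : 0 < r := hsub.pos
  have h1 : ‖((subPt s₀ c z r γ : Sph d) : Vec d) - (v : Vec d)‖ ≤ ε :=
    norm_sub_le_of_angle_le v _ h
  rw [coe_subPt s₀ hsub hγ] at h1
  have h2 : ‖rowCo c (z + r • mix (dirV γ) c - (v : Vec d))‖ ≤ ε :=
    le_trans (capPC_norm_rowCo_le hsub.on _) h1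
  rw [capPC_rowCo_sub hsub] at h2
  have h3 : dirV γ - r⁻¹ • rowCo c (v : Vec d) = r⁻¹ • (r • dirV γ - rowCo c (v : Vec d)) := by
    rw [smul_sub, smul_smul, inv_mul_cancel₀ hr.ne', one_smul]
  rw [h3, norm_smul, Real.norm_eq_abs, abs_of_pos (inv_pos.mpr hr), div_eq_inv_mul]
  exact mul_le_mul_of_nonneg_left h2 (inv_pos.mpr hr).le

/-- Cap bound on a round subsphere: the coordinate vectors whose point lies within angle `ε` of
a fixed point `v` of the sphere have Gaussian mass at most `(4 ε / r)^D`, when the subsphere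
has at least `D + 1` frame vectors. -/
theorem cap_gauss {K D : ℕ} (s₀ : Sph d) (hD : 1 ≤ D) (hK : D + 1 ≤ K) (c : Fin K → Vec d)
    (z : Vec d) (r : ℝ) (hsub : IsSub c z r) {ε : ℝ} (hε : 0 < ε) (v : Sph d) :
    stdGaussian (Vec K)
        {γ : Vec K | InnerProductGeometry.angle (v : Vec d) (subPt s₀ c z r γ : Vec d) ≤ ε}
      ≤ ENNReal.ofReal ((4 * ε) ^ D) * ((ENNReal.ofReal r)⁻¹) ^ D := by
  have hr : 0 < r := hsub.pos
  have hrhs : ENNReal.ofReal ((4 * ε) ^ D) * ((ENNReal.ofReal r)⁻¹) ^ D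
      = ENNReal.ofReal ((4 * (ε / r)) ^ D) := by
    rw [← ENNReal.ofReal_inv_of_pos hr, ← ENNReal.ofReal_pow (inv_pos.mpr hr).le,
      ← ENNReal.ofReal_mul (by positivity)]
    congr 1
    rw [← mul_pow]
    congr 1
    field_simp
  rw [hrhs]
  set S : Set (Vec K) :=
    {γ : Vec K | InnerProductGeometry.angle (v : Vec d) (subPt s₀ c z r γ : Vec d) ≤ ε} with hS
  by_cases hbig : r < 4 * ε
  · have h1 : (1 : ℝ) ≤ (4 * (ε / r)) ^ D := by
      apply one_le_pow₀
      rw [← mul_div_assoc, le_div_iff₀ hr]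
      linarith
    calc stdGaussian (Vec K) S ≤ 1 := prob_le_one
      _ = ENNReal.ofReal 1 := by simp
      _ ≤ ENNReal.ofReal ((4 * (ε / r)) ^ D) := ENNReal.ofReal_le_ofReal h1
  · have hsmall : 4 * ε ≤ r := not_lt.mp hbig
    have ht0 : 0 ≤ ε / r := by positivity
    have ht4 : ε / r ≤ 1 / 4 := by
      rw [div_le_iff₀ hr]
      linarith
    set w : Vec K := rowCo c (v : Vec d) with hw
    have hnull : stdGaussian (Vec K) {(0 : Vec K)} = 0 := by
      have s₁ : Sph K := ⟨EuclideanSpace.single ⟨0, by omega⟩ (1 : ℝ), by simp⟩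
      exact gdir_gaussian_zero_null s₁
    by_cases hw0 : w = 0
    · have hsub0 : S ⊆ {(0 : Vec K)} := by
        intro γ hγ
        by_contra hne
        have hγ0 : γ ≠ 0 := hne
        have h1 := capPC_core s₀ hsub v hγ0 hγ
        rw [← hw, hw0, smul_zero, sub_zero, norm_dirV hγ0] at h1
        linarith
      calc stdGaussian (Vec K) S ≤ stdGaussian (Vec K) {(0 : Vec K)} := measure_mono hsub0
        _ = 0 := hnull
        _ ≤ _ := bot_le
    · set u : Fin 1 → Vec K := fun _ => dirV w with hu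
      have hu1 : ‖dirV w‖ = 1 := norm_dirV hw0
      have huo : Orthonormal ℝ u := (gdir_orthonormal_iff u).mpr hu1
      set T : Set (Vec K) :=
        {g : Vec K | ‖g - ∑ l, inner ℝ (u l) g • u l‖ ≤ ε / r * ‖g‖} with hT
      have hsubT : S ⊆ T ∪ {(0 : Vec K)} := by
        intro γ hγ
        by_cases hγ0 : γ = 0
        · right
          exact hγ0
        · left
          have h1 := capPC_core s₀ hsub v hγ0 hγ
          rw [← hw] at h1
          show ‖γ - ∑ l, inner ℝ (u l) γ • u l‖ ≤ ε / r * ‖γ‖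
          rw [Fin.sum_univ_one]
          have h2 := capPC_proj_le (dirV w) γ hu1 (‖γ‖ * r⁻¹ * ‖w‖)
          have h3 : (‖γ‖ * r⁻¹ * ‖w‖) • dirV w = ‖γ‖ • (r⁻¹ • w) := by
            rw [mul_smul, mul_smul, norm_smul_dirV]
          have h4 : γ - ‖γ‖ • (r⁻¹ • w) = ‖γ‖ • (dirV γ - r⁻¹ • w) := by
            rw [smul_sub, norm_smul_dirV]
          have h5 : ‖γ - (‖γ‖ * r⁻¹ * ‖w‖) • dirV w‖ ≤ ε / r * ‖γ‖ := by
            rw [h3, h4, norm_smul, norm_norm, mul_comm]
            exact mul_le_mul_of_nonneg_right h1 (norm_nonneg γ)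
          exact le_trans h2 h5
      have hrsb := ratio_small_ball u huo ht0
      have hpow : (2 : ℝ) ^ 1 * (2 * (ε / r)) ^ (K - 1) ≤ (4 * (ε / r)) ^ D := by
        have h2t0 : 0 ≤ 2 * (ε / r) := by positivity
        have h2t1 : 2 * (ε / r) ≤ 1 := by linarith
        have h1 : (2 * (ε / r)) ^ (K - 1) ≤ (2 * (ε / r)) ^ D :=
          pow_le_pow_of_le_one h2t0 h2t1 (by omega)
        have h2 : (4 * (ε / r)) ^ D = (2 : ℝ) ^ D * (2 * (ε / r)) ^ D := by
          rw [← mul_pow]
          congr 1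
          ring
        have h3 : (2 : ℝ) ^ 1 ≤ (2 : ℝ) ^ D := pow_le_pow_right₀ (by norm_num) hD
        rw [h2]
        exact mul_le_mul h3 h1 (pow_nonneg h2t0 _) (by positivity)
      calc stdGaussian (Vec K) S ≤ stdGaussian (Vec K) (T ∪ {(0 : Vec K)}) := measure_mono hsubT
        _ ≤ stdGaussian (Vec K) T + stdGaussian (Vec K) {(0 : Vec K)} := measure_union_le _ _
        _ = stdGaussian (Vec K) T := by rw [hnull, add_zero]
        _ ≤ ENNReal.ofReal (2 ^ 1 * (2 * (ε / r)) ^ (K - 1)) := hrsb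
        _ ≤ ENNReal.ofReal ((4 * (ε / r)) ^ D) := ENNReal.ofReal_le_ofReal hpow

/-- Base case of the profile recursion: with no further sample the decoding probability has
the radial profile `(4 ε)^D / ρ^D` from dimension `D + 1` on. -/
theorem cap_profile (s₀ : Sph d) (L : Learner d M) (t : ℕ) {ε : ℝ} (hε : 0 < ε) (p : St M)
    (D : ℕ) (hD : 1 ≤ D) :
    ProfLe s₀ (phiBar L t 0 ε p) (D + 1) (profFn D (ENNReal.ofReal ((4 * ε) ^ D)) 0) := by
  intro K hK c z r hsub
  have hmk : IsMarkovKernel L.out := L.out_markov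
  unfold subAvg profFn
  rw [add_zero]
  set E : Set (Vec K × Sph d) :=
    (fun q : Vec K × Sph d => (subPt s₀ c z r q.1, q.2)) ⁻¹' goodPairs d ε with hE
  have hEm : MeasurableSet E := by
    have hmeas : Measurable (fun q : Vec K × Sph d => (subPt s₀ c z r q.1, q.2)) :=
      ((measurable_subPt s₀ c z r).comp measurable_fst).prodMk measurable_snd
    exact hmeas (measurableSet_goodPairs d ε)
  have h1 : ∀ γ : Vec K, phiBar L t 0 ε p (subPt s₀ c z r γ)
      = L.out p.1 (Prod.mk γ ⁻¹' E) := by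
    intro γ
    rw [phiBar_zero, goodOutputs_eq]
    rfl
  simp only [h1]
  rw [← Measure.prod_apply hEm, Measure.prod_apply_symm hEm]
  calc ∫⁻ y, stdGaussian (Vec K) ((fun x => (x, y)) ⁻¹' E) ∂(L.out p.1)
      ≤ ∫⁻ _y : Sph d, ENNReal.ofReal ((4 * ε) ^ D) * ((ENNReal.ofReal r)⁻¹) ^ D
          ∂(L.out p.1) := by
        refine lintegral_mono (fun y => ?_)
        exact cap_gauss s₀ hD hK c z r hsub hε y
    _ = ENNReal.ofReal ((4 * ε) ^ D) * ((ENNReal.ofReal r)⁻¹) ^ D := by
        rw [lintegral_const, measure_univ, mul_one]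

end Vale.Agent.Lib.P309
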