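import Vale.Agent.Lib.P309.Prof.Defs

namespace Vale.Agent.Lib.P309

open MeasureTheory ProbabilityTheory Metric Set
open scoped ENNReal

/-- The normalised vector of a nonzero vector has norm one. -/
theorem norm_dirV {K : ℕ} {x : Vec K} (hx : x ≠ 0) : ‖dirV x‖ = 1 := by
  unfold dirV
  rw [norm_smul, norm_inv, norm_norm]
  exact inv_mul_cancel₀ (norm_ne_zero_iff.mpr hx)

/-- A vector is its norm times its normalised vector. -/
theorem norm_smul_dirV {K : ℕ} (x : Vec K) : ‖x‖ • dirV x = x := by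
  unfold dirV
  by_cases hx : x = 0
  · rw [hx, smul_zero, smul_zero]
  · rw [smul_smul, mul_inv_cancel₀ (norm_ne_zero_iff.mpr hx), one_smul]

theorem dirV_smul_pos {K : ℕ} {a : ℝ} (ha : 0 < a) (x : Vec K) : dirV (a • x) = dirV x := by
  unfold dirV
  have h1 : (a * ‖x‖)⁻¹ * a = ‖x‖⁻¹ := by
    rw [mul_inv, mul_comm a⁻¹, mul_assoc, inv_mul_cancel₀ ha.ne', mul_one]
  rw [norm_smul, Real.norm_of_nonneg ha.le, smul_smul, h1]

/-- The combination map is linear in the coefficients. -/
theorem mix_add {d K : ℕ} (v w : Vec K) (c : Fin K → Vec d) : mix (v + w) c = mix v c + mix w c := by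
  unfold mix
  rw [← Finset.sum_add_distrib]
  refine Finset.sum_congr rfl (fun l _ => ?_)
  rw [PiLp.add_apply, add_smul]

theorem mix_smul {d K : ℕ} (a : ℝ) (v : Vec K) (c : Fin K → Vec d) :
    mix (a • v) c = a • mix v c := by
  unfold mix
  rw [Finset.smul_sum]
  refine Finset.sum_congr rfl (fun l _ => ?_)
  rw [PiLp.smul_apply, smul_eq_mul, mul_smul]

theorem mix_sum {d K N : ℕ} (w : Fin N → Vec K) (c : Fin K → Vec d) :
    mix (∑ l, w l) c = ∑ l, mix (w l) c := by
  unfold mix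
  rw [Finset.sum_comm]
  refine Finset.sum_congr rfl (fun j _ => ?_)
  rw [← Finset.sum_smul, WithLp.ofLp_sum, Finset.sum_apply]

/-- Combinations along an orthonormal frame preserve inner products. -/
theorem inner_mix_mix {d K : ℕ} {c : Fin K → Vec d} (hc : Orthonormal ℝ c) (v w : Vec K) :
    inner ℝ (mix v c) (mix w c) = inner ℝ v w := by
  unfold mix
  rw [hc.inner_sum, PiLp.inner_apply]
  refine Finset.sum_congr rfl (fun l _ => ?_)
  simp [mul_comm]

/-- Combinations along an orthonormal frame preserve norms. -/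
theorem norm_mix {d K : ℕ} {c : Fin K → Vec d} (hc : Orthonormal ℝ c) (v : Vec K) :
    ‖mix v c‖ = ‖v‖ := by
  have h := inner_mix_mix hc v v
  rw [real_inner_self_eq_norm_sq, real_inner_self_eq_norm_sq] at h
  have h2 := congrArg Real.sqrt h
  rwa [Real.sqrt_sq (norm_nonneg _), Real.sqrt_sq (norm_nonneg _)] at h2

/-- The inner product of a frame vector with a combination is the coefficient. -/
theorem inner_frame_mix {d K : ℕ} {c : Fin K → Vec d} (hc : Orthonormal ℝ c) (v : Vec K)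
    (l : Fin K) : inner ℝ (c l) (mix v c) = v l := by
  unfold mix
  exact hc.inner_right_fintype (fun l => v l) l

/-- The inner product of a vector with a combination, through its coordinates. -/
theorem inner_mix_rowCo {d K : ℕ} (c : Fin K → Vec d) (x : Vec d) (v : Vec K) :
    inner ℝ x (mix v c) = inner ℝ (rowCo c x) v := by
  unfold mix rowCo
  rw [inner_sum, PiLp.inner_apply]
  refine Finset.sum_congr rfl (fun l _ => ?_)
  rw [real_inner_smul_right]
  show v l * inner ℝ x (c l) = inner ℝ (inner ℝ (c l) x) (v l)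
  rw [real_inner_comm x (c l)]
  simp

theorem dirV_mix {d K : ℕ} {c : Fin K → Vec d} (hc : Orthonormal ℝ c) (v : Vec K) :
    ‖mix v c‖⁻¹ • mix v c = mix (dirV v) c := by
  rw [norm_mix hc]
  unfold dirV
  rw [mix_smul]

/-- A combination of combinations. -/
theorem mix_mix {d K K' : ℕ} (v : Vec K') (b : Fin K' → Vec K) (c : Fin K → Vec d) :
    mix (mix v b) c = mix v (fun j => mix (b j) c) := by
  show mix (∑ j, v j • b j) c = ∑ j, v j • mix (b j) c
  rw [mix_sum]
  exact Finset.sum_congr rfl (fun j _ => mix_smul _ _ _)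

/-- Combinations of an orthonormal family along an orthonormal frame are orthonormal. -/
theorem orthonormal_mix {d K K' : ℕ} {c : Fin K → Vec d} (hc : Orthonormal ℝ c)
    {b : Fin K' → Vec K} (hb : Orthonormal ℝ b) : Orthonormal ℝ (fun j => mix (b j) c) := by
  rw [orthonormal_iff_ite]
  intro i j
  show inner ℝ (mix (b i) c) (mix (b j) c) = _
  rw [inner_mix_mix hc]
  exact orthonormal_iff_ite.mp hb i j

/-- The combination along the coordinate frame is the vector itself. -/
theorem mix_single {K : ℕ} (v : Vec K) :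
    mix v (fun l : Fin K => (EuclideanSpace.single l (1 : ℝ) : Vec K)) = v := by
  unfold mix
  ext i
  rw [WithLp.ofLp_sum, Finset.sum_apply]
  simp [PiLp.single_apply]

/-- A point of a round subsphere, as a vector. -/
theorem coe_subPt {d K : ℕ} (s₀ : Sph d) {c : Fin K → Vec d} {z : Vec d} {r : ℝ}
    (hsub : IsSub c z r) {γ : Vec K} (hγ : γ ≠ 0) :
    ((subPt s₀ c z r γ : Sph d) : Vec d) = z + r • mix (dirV γ) c := by
  have hm : ‖mix (dirV γ) c‖ = 1 := by
    rw [norm_mix hsub.on, norm_dirV hγ]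
  have horth : inner ℝ z (mix (dirV γ) c) = 0 := by
    unfold mix
    rw [inner_sum]
    refine Finset.sum_eq_zero (fun l _ => ?_)
    rw [real_inner_smul_right, real_inner_comm, hsub.orth l, mul_zero]
  have hw : ‖z + r • mix (dirV γ) c‖ = 1 := by
    have h2 : ‖z + r • mix (dirV γ) c‖ ^ 2 = 1 := by
      rw [norm_add_sq_real, real_inner_smul_right, horth, norm_smul, mul_pow, hm,
        Real.norm_eq_abs, sq_abs]
      have hu := hsub.unit
      linarith
    have h3 := congrArg Real.sqrt h2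
    rwa [Real.sqrt_sq (norm_nonneg _), Real.sqrt_one] at h3
  have hne : z + r • mix (dirV γ) c ≠ 0 := by
    intro h0
    rw [h0, norm_zero] at hw
    exact zero_ne_one hw
  unfold subPt
  rw [coe_dirS_of_ne s₀ hne, hw, inv_one, one_smul]

theorem hdV_glueV {n m : ℕ} (a : Vec n) (b : Vec m) : hdV (glueV a b) = a := by
  ext i
  simp [hdV, glueV]

theorem tlV_glueV {n m : ℕ} (a : Vec n) (b : Vec m) : tlV (glueV a b) = b := by
  ext j
  simp [tlV, glueV]

theorem glueV_hdV_tlV {n m : ℕ} (γ : Vec (n + m)) : glueV (hdV γ) (tlV γ) = γ := by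
  ext i
  refine Fin.addCases (fun i => ?_) (fun j => ?_) i
  · simp [glueV, hdV]
  · simp [glueV, tlV]

theorem glueV_add {n m : ℕ} (a a' : Vec n) (b b' : Vec m) :
    glueV (a + a') (b + b') = glueV a b + glueV a' b' := by
  ext i
  refine Fin.addCases (fun i => ?_) (fun j => ?_) i
  · simp [glueV]
  · simp [glueV]

theorem glueV_smul {n m : ℕ} (t : ℝ) (a : Vec n) (b : Vec m) :
    glueV (t • a) (t • b) = t • glueV a b := by
  ext i
  refine Fin.addCases (fun i => ?_) (fun j => ?_) i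
  · simp [glueV]
  · simp [glueV]

theorem inner_glueV {n m : ℕ} (a a' : Vec n) (b b' : Vec m) :
    inner ℝ (glueV a b) (glueV a' b') = inner ℝ a a' + inner ℝ b b' := by
  rw [PiLp.inner_apply, PiLp.inner_apply, PiLp.inner_apply, Fin.sum_univ_add]
  simp [glueV]

theorem norm_glueV_sq {n m : ℕ} (a : Vec n) (b : Vec m) :
    ‖glueV a b‖ ^ 2 = ‖a‖ ^ 2 + ‖b‖ ^ 2 := by
  rw [← real_inner_self_eq_norm_sq, ← real_inner_self_eq_norm_sq, ← real_inner_self_eq_norm_sq]
  exact inner_glueV a a b b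

theorem norm_sq_hdV_tlV {n m : ℕ} (γ : Vec (n + m)) : ‖γ‖ ^ 2 = ‖hdV γ‖ ^ 2 + ‖tlV γ‖ ^ 2 := by
  rw [← norm_glueV_sq, glueV_hdV_tlV]

theorem hdV_rsV {n m : ℕ} (γ : Vec (n + m)) (q : Vec m) : hdV (rsV γ q) = hdV γ := by
  unfold rsV
  exact hdV_glueV _ _

/-- Resampling keeps the norm. -/
theorem norm_rsV {n m : ℕ} (γ : Vec (n + m)) {q : Vec m} (hq : q ≠ 0) : ‖rsV γ q‖ = ‖γ‖ := by
  have h2 : ‖rsV γ q‖ ^ 2 = ‖γ‖ ^ 2 := by
    unfold rsV
    rw [norm_glueV_sq, norm_smul, norm_norm, norm_dirV hq, mul_one, ← norm_sq_hdV_tlV]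
  have h3 := congrArg Real.sqrt h2
  rwa [Real.sqrt_sq (norm_nonneg _), Real.sqrt_sq (norm_nonneg _)] at h3

theorem norm_tlV_le {n m : ℕ} (γ : Vec (n + m)) : ‖tlV γ‖ ≤ ‖γ‖ := by
  have h := norm_sq_hdV_tlV γ
  have h1 : ‖tlV γ‖ ^ 2 ≤ ‖γ‖ ^ 2 := by
    have h0 := sq_nonneg ‖hdV γ‖
    linarith
  have h2 := Real.sqrt_le_sqrt h1
  rwa [Real.sqrt_sq (norm_nonneg _), Real.sqrt_sq (norm_nonneg _)] at h2

end Vale.Agent.Lib.P309
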