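import Vale.Agent.Lib.P309.Geo.RatioHelper10
import Vale.Agent.Lib.P309.Multi.GaussDir
import Vale.Agent.Lib.P309.Multi.Spokes
import Vale.Agent.Lib.P309.Prof.Basic

namespace Vale.Agent.Lib.P309

open MeasureTheory ProbabilityTheory Metric Set
open scoped ENNReal

variable {d M : ℕ}

/-- The whole sphere is a round subsphere: coordinate frame, centre `0`, radius `1`. -/
theorem isSub_full (d : ℕ) :
    IsSub (fun l : Fin d => (EuclideanSpace.single l (1 : ℝ) : Vec d)) (0 : Vec d) 1 := by
  refine ⟨EuclideanSpace.orthonormal_single, fun l => inner_zero_right _, zero_lt_one, ?_⟩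
  simp

/-- A point of the whole sphere seen as a subsphere is the direction of its coordinate vector. -/
theorem fullAux_subPt (s₀ : Sph d) {γ : Vec d} (hγ : γ ≠ 0) :
    subPt s₀ (fun l : Fin d => (EuclideanSpace.single l (1 : ℝ) : Vec d)) 0 1 γ = dirS s₀ γ := by
  have hpos : 0 < ‖γ‖⁻¹ := inv_pos.mpr (norm_pos_iff.mpr hγ)
  unfold subPt
  rw [mix_single, zero_add, one_smul]
  unfold dirV
  exact dirS_smul_pos s₀ hpos γ

/-- The average over the whole sphere, as a subsphere average. -/
theorem subAvg_full (s₀ : Sph d) (Γ : Sph d → ℝ≥0∞) (hΓ : Measurable Γ) :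
    subAvg s₀ Γ (fun l : Fin d => (EuclideanSpace.single l (1 : ℝ) : Vec d)) 0 1
      = ∫⁻ s, Γ s ∂(uniformSphere d) := by
  unfold subAvg
  rw [← lintegral_gaussian_dir s₀ Γ hΓ]
  refine lintegral_congr_ae ?_
  filter_upwards [spokes_ae_ne_zero s₀] with γ hγ
  rw [fullAux_subPt s₀ hγ]

/-- The radial profile at radius one. -/
theorem fullAux_profFn_one (D : ℕ) (A τ : ℝ≥0∞) : profFn D A τ 1 = A + τ := by
  unfold profFn
  rw [ENNReal.ofReal_one, inv_one, one_pow, mul_one]

end Vale.Agent.Lib.P309
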