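import Vale.Agent.Lib.P309.Prof.Defs
import Vale.Agent.Lib.P309.Stage.LearnerSplit

namespace Vale.Agent.Lib.P309

open MeasureTheory ProbabilityTheory Metric Set
open scoped ENNReal

variable {d M : ℕ}

/-- The weight of a memory pair after `a` further samples depends on the signal only through
the labels of these samples. -/
theorem muT_congr_labels (L : Learner d M) (t a : ℕ) (p p' : St M) (X' : Fin a → Vec d)
    (s s' : Sph d)
    (h : ∀ j, inner ℝ (X' j) (s : Vec d) = inner ℝ (X' j) (s' : Vec d)) :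
    muT L t a p p' X' s = muT L t a p p' X' s' := by
  unfold muT
  have h1 : L.contFrom t
        (zOf (appendX t (fun _ => (0 : Vec d)) (appendX a X' (fun _ => (0 : Vec d)))) s) a p
      = L.contFrom t
        (zOf (appendX t (fun _ => (0 : Vec d)) (appendX a X' (fun _ => (0 : Vec d)))) s')
          a p := by
    apply L.contFrom_congr
    intro i hi1 hi2
    unfold zOf
    rw [lsplit_appendX_mid t a _ X' _ i hi1 hi2, h ⟨i - t, by omega⟩]
  rw [h1]

/-- Radial profiles are monotone in the threshold and in the profile. -/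
theorem profLe_mono (s₀ : Sph d) (Γ : Sph d → ℝ≥0∞) {K₀ K₁ : ℕ} {φ ψ : ℝ → ℝ≥0∞}
    (h : ProfLe s₀ Γ K₀ φ) (hK : K₀ ≤ K₁) (hφ : ∀ ρ, φ ρ ≤ ψ ρ) : ProfLe s₀ Γ K₁ ψ := by
  intro K hK' c z r hsub
  exact (h K (hK.trans hK') c z r hsub).trans (hφ r)

/-- The profile function is monotone in its two coefficients. -/
lemma recprof_profFn_mono (D : ℕ) {A A' τ τ' : ℝ≥0∞} (hA : A ≤ A') (hτ : τ ≤ τ') (ρ : ℝ) :
    profFn D A τ ρ ≤ profFn D A' τ' ρ := by
  unfold profFn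
  exact add_le_add (mul_le_mul' hA le_rfl) hτ

/-- The additive term of the profile at stage zero. -/
lemma recprof_profT_zero (M E N : ℕ) : profT M E N 0 = 0 := by
  unfold profT
  rw [Nat.cast_zero, zero_mul, zero_mul]

/-- The number of memory pairs. -/
lemma recprof_card_St (M : ℕ) : (Fintype.card (St M) : ℝ≥0∞) = (2 : ℝ≥0∞) ^ (M + 1) := by
  have h : Fintype.card (St M) = 2 ^ M * 2 := by
    show Fintype.card (Fin (2 ^ M) × Bool) = 2 ^ M * 2
    rw [Fintype.card_prod, Fintype.card_fin, Fintype.card_bool]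
  rw [h, pow_succ]
  push_cast
  rfl

/-- The additive term of the profile after one more stage. -/
lemma recprof_profT_succ (M E N i : ℕ) :
    (2 : ℝ≥0∞) ^ E * profT M E N i
        + (Fintype.card (St M) : ℝ≥0∞) * ((2 : ℝ≥0∞) ^ (E * N))⁻¹
      ≤ profT M E N (i + 1) := by
  rw [recprof_card_St]
  unfold profT
  set cc : ℝ≥0∞ := (2 : ℝ≥0∞) ^ (M + 1) * ((2 : ℝ≥0∞) ^ (E * N))⁻¹ with hcc
  have h1 : (2 : ℝ≥0∞) ^ E * ((i : ℝ≥0∞) * (2 : ℝ≥0∞) ^ (i * E) * cc)
      = (i : ℝ≥0∞) * ((2 : ℝ≥0∞) ^ ((i + 1) * E) * cc) := by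
    rw [Nat.succ_mul, pow_add]
    ring
  have h2 : cc ≤ (2 : ℝ≥0∞) ^ ((i + 1) * E) * cc := by
    have h3 : (1 : ℝ≥0∞) ≤ (2 : ℝ≥0∞) ^ ((i + 1) * E) := one_le_pow₀ (by norm_num)
    calc cc = 1 * cc := (one_mul _).symm
      _ ≤ (2 : ℝ≥0∞) ^ ((i + 1) * E) * cc := mul_le_mul' h3 le_rfl
  have h4 : ((i + 1 : ℕ) : ℝ≥0∞) * (2 : ℝ≥0∞) ^ ((i + 1) * E) * cc
      = (i : ℝ≥0∞) * ((2 : ℝ≥0∞) ^ ((i + 1) * E) * cc)
        + (2 : ℝ≥0∞) ^ ((i + 1) * E) * cc := by
    rw [Nat.cast_add, Nat.cast_one]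
    ring
  rw [h1, h4]
  exact add_le_add le_rfl h2

/-- The additive term of the profile increases with the stage. -/
lemma recprof_profT_le (M E N i : ℕ) : profT M E N i ≤ profT M E N (i + 1) := by
  refine le_trans ?_ (recprof_profT_succ M E N i)
  have h1 : (1 : ℝ≥0∞) ≤ (2 : ℝ≥0∞) ^ E := one_le_pow₀ (by norm_num)
  calc profT M E N i = 1 * profT M E N i := (one_mul _).symm
    _ ≤ (2 : ℝ≥0∞) ^ E * profT M E N i := mul_le_mul' h1 le_rfl
    _ ≤ _ := le_self_add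

end Vale.Agent.Lib.P309
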