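import Vale.Agent.Lib.P309.Cap

namespace Vale.Agent.Lib.P309

open MeasureTheory ProbabilityTheory Metric Set
open scoped ENNReal

/-- The explicit output-precision bound: every learner with `M` bits and any horizon has
success probability at most `2^M 3^d ε^(d-1) / d`. -/
theorem profgen_count (d M T : ℕ) (hd : 1 ≤ d) (ε : ℝ) (hε : 0 < ε) (hε1 : ε ≤ 1)
    (L : Learner d M) :
    L.successProb T ε ≤ ENNReal.ofReal (2 ^ M * 3 ^ d * ε ^ (d - 1) / d) := by
  have h := successProb_le L T ε (ENNReal.ofReal (3 ^ d * ε ^ (d - 1) / d))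
    (fun v => uniformSphere_cap_le d hd ε hε hε1 v)
  refine h.trans (le_of_eq ?_)
  have h2 : (2 : ℝ≥0∞) ^ M = ENNReal.ofReal ((2 : ℝ) ^ M) := by
    rw [ENNReal.ofReal_pow (by norm_num)]
    norm_num
  rw [h2, ← ENNReal.ofReal_mul (by positivity)]
  congr 1
  ring

end Vale.Agent.Lib.P309
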