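import Vale.Agent.Lib.P309.Geo.GaussIndep
import Vale.Agent.Lib.P309.Prof.Basic

namespace Vale.Agent.Lib.P309

open MeasureTheory ProbabilityTheory Metric Set
open scoped ENNReal

theorem blkAux_castAdd {n m : ℕ} (O : Fin m → Vec m) (i : Fin n) :
    blkFr (n := n) O (Fin.castAdd m i)
      = (EuclideanSpace.single (Fin.castAdd m i) (1 : ℝ) : Vec (n + m)) := by
  unfold blkFr
  rw [Fin.append_left]

theorem blkAux_natAdd {n m : ℕ} (O : Fin m → Vec m) (j : Fin m) :
    blkFr (n := n) O (Fin.natAdd n j) = glueV (0 : Vec n) (O j) := by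
  unfold blkFr
  rw [Fin.append_right]

theorem blkAux_glueV_castAdd {n m : ℕ} (a : Vec n) (b : Vec m) (i : Fin n) :
    glueV a b (Fin.castAdd m i) = a i := by
  show Fin.append (fun i : Fin n => a i) (fun j : Fin m => b j) (Fin.castAdd m i) = a i
  rw [Fin.append_left]

theorem blkAux_glueV_natAdd {n m : ℕ} (a : Vec n) (b : Vec m) (j : Fin m) :
    glueV a b (Fin.natAdd n j) = b j := by
  show Fin.append (fun i : Fin n => a i) (fun j : Fin m => b j) (Fin.natAdd n j) = b j
  rw [Fin.append_right]

theorem blkAux_single_apply {K : ℕ} (k k' : Fin K) :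
    (EuclideanSpace.single k (1 : ℝ) : Vec K) k' = if k' = k then 1 else 0 := by
  simp

theorem blkAux_inner_single_left {K : ℕ} (k : Fin K) (v : Vec K) :
    inner ℝ (EuclideanSpace.single k (1 : ℝ) : Vec K) v = v k := by
  rw [EuclideanSpace.inner_single_left]
  simp

theorem blkAux_inner_single_right {K : ℕ} (k : Fin K) (v : Vec K) :
    inner ℝ v (EuclideanSpace.single k (1 : ℝ) : Vec K) = v k := by
  rw [real_inner_comm, blkAux_inner_single_left]

/-- The block frame of an orthonormal family of `m` vectors of `ℝ^m` is orthonormal. -/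
theorem blkFr_orthonormal {n m : ℕ} {O : Fin m → Vec m} (hO : Orthonormal ℝ O) :
    Orthonormal ℝ (blkFr (n := n) O) := by
  have hO' := orthonormal_iff_ite.1 hO
  rw [orthonormal_iff_ite]
  intro a b
  induction a using Fin.addCases with
  | left i =>
    induction b using Fin.addCases with
    | left i' =>
      rw [blkAux_castAdd, blkAux_castAdd, blkAux_inner_single_left, blkAux_single_apply]
    | right j' =>
      rw [blkAux_castAdd, blkAux_natAdd, blkAux_inner_single_left, blkAux_glueV_castAdd]
      have hne : Fin.castAdd m i ≠ Fin.natAdd n j' := by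
        intro h
        have h1 := congrArg Fin.val h
        simp only [Fin.val_castAdd, Fin.val_natAdd] at h1
        omega
      rw [if_neg hne]
      rfl
  | right j =>
    induction b using Fin.addCases with
    | left i' =>
      rw [blkAux_castAdd, blkAux_natAdd, blkAux_inner_single_right, blkAux_glueV_castAdd]
      have hne : Fin.natAdd n j ≠ Fin.castAdd m i' := by
        intro h
        have h1 := congrArg Fin.val h
        simp only [Fin.val_castAdd, Fin.val_natAdd] at h1
        omega
      rw [if_neg hne]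
      rfl
    | right j' =>
      rw [blkAux_natAdd, blkAux_natAdd, inner_glueV, inner_zero_left, zero_add, hO' j j']
      by_cases hjj : j = j'
      · rw [if_pos hjj, if_pos (by rw [hjj])]
      · rw [if_neg hjj, if_neg (fun h => hjj ((Fin.natAdd_inj n).1 h))]

/-- The combination along a block frame keeps the first coordinates and combines the last
coordinates along `O`. -/
theorem mix_blkFr {n m : ℕ} (O : Fin m → Vec m) (γ : Vec (n + m)) :
    mix γ (blkFr (n := n) O) = glueV (hdV γ) (mix (tlV γ) O) := by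
  have hcoord : ∀ (k : Fin (n + m)), (mix γ (blkFr (n := n) O)) k
      = ∑ i : Fin n, γ (Fin.castAdd m i) * (blkFr (n := n) O (Fin.castAdd m i)) k
        + ∑ j : Fin m, γ (Fin.natAdd n j) * (blkFr (n := n) O (Fin.natAdd n j)) k := by
    intro k
    unfold mix
    rw [Fin.sum_univ_add]
    simp [smul_eq_mul]
  have hmixO : ∀ j₀ : Fin m, (mix (tlV γ) O) j₀ = ∑ j : Fin m, γ (Fin.natAdd n j) * O j j₀ := by
    intro j₀
    unfold mix
    simp [smul_eq_mul, tlV]
  ext k
  rw [hcoord k]
  induction k using Fin.addCases with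
  | left i₀ =>
    rw [blkAux_glueV_castAdd]
    have h1 : ∑ i : Fin n, γ (Fin.castAdd m i) * (blkFr (n := n) O (Fin.castAdd m i))
        (Fin.castAdd m i₀) = γ (Fin.castAdd m i₀) := by
      rw [Finset.sum_eq_single i₀]
      · rw [blkAux_castAdd, blkAux_single_apply, if_pos rfl, mul_one]
      · intro i _ hi
        rw [blkAux_castAdd, blkAux_single_apply,
          if_neg (fun h => hi (Fin.castAdd_injective n m h).symm), mul_zero]
      · intro h
        exact absurd (Finset.mem_univ i₀) h
    have h2 : ∑ j : Fin m, γ (Fin.natAdd n j) * (blkFr (n := n) O (Fin.natAdd n j))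
        (Fin.castAdd m i₀) = 0 := by
      refine Finset.sum_eq_zero (fun j _ => ?_)
      rw [blkAux_natAdd, blkAux_glueV_castAdd]
      simp
    rw [h1, h2, add_zero]
    rfl
  | right j₀ =>
    rw [blkAux_glueV_natAdd, hmixO j₀]
    have h1 : ∑ i : Fin n, γ (Fin.castAdd m i) * (blkFr (n := n) O (Fin.castAdd m i))
        (Fin.natAdd n j₀) = 0 := by
      refine Finset.sum_eq_zero (fun i _ => ?_)
      have hne : Fin.natAdd n j₀ ≠ Fin.castAdd m i := by
        intro h
        have h1 := congrArg Fin.val h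
        simp only [Fin.val_castAdd, Fin.val_natAdd] at h1
        omega
      rw [blkAux_castAdd, blkAux_single_apply, if_neg hne, mul_zero]
    rw [h1, zero_add]
    refine Finset.sum_congr rfl (fun j _ => ?_)
    rw [blkAux_natAdd, blkAux_glueV_natAdd]

/-- A property that fails only where a fixed coordinate vanishes holds almost surely for a
standard Gaussian vector. -/
theorem blkAux_ae_of_coord {K : ℕ} (k : Fin K) (P : Vec K → Prop)
    (h : ∀ x : Vec K, ¬ P x → x k = 0) : ∀ᵐ x ∂(stdGaussian (Vec K)), P x := by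
  have hu : (EuclideanSpace.single k (1 : ℝ) : Vec K) ≠ 0 := by
    intro h0
    have h1 : (EuclideanSpace.single k (1 : ℝ) : Vec K) k = (0 : Vec K) k := by rw [h0]
    rw [blkAux_single_apply, if_pos rfl] at h1
    exact one_ne_zero h1
  rw [ae_iff]
  refine measure_mono_null ?_ (stdGaussian_hyperplane_null _ hu)
  intro x hx
  show inner ℝ (EuclideanSpace.single k (1 : ℝ) : Vec K) x = 0
  rw [blkAux_inner_single_left]
  exact h x hx

/-- Almost surely the first `n ≥ 1` coordinates of a standard Gaussian vector do not all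
vanish. -/
theorem ae_hdV_ne_zero {n m : ℕ} (hn : 1 ≤ n) :
    ∀ᵐ γ ∂(stdGaussian (Vec (n + m))), hdV γ ≠ 0 := by
  refine blkAux_ae_of_coord (Fin.castAdd m ⟨0, hn⟩) _ (fun x hx => ?_)
  have h0 : hdV x = 0 := not_not.mp hx
  have h1 : (hdV x) ⟨0, hn⟩ = (0 : Vec n) ⟨0, hn⟩ := by rw [h0]
  exact h1

/-- Almost surely the last `m ≥ 1` coordinates of a standard Gaussian vector do not all
vanish. -/
theorem ae_tlV_ne_zero {n m : ℕ} (hm : 1 ≤ m) :
    ∀ᵐ γ ∂(stdGaussian (Vec (n + m))), tlV γ ≠ 0 := by
  refine blkAux_ae_of_coord (Fin.natAdd n ⟨0, hm⟩) _ (fun x hx => ?_)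
  have h0 : tlV x = 0 := not_not.mp hx
  have h1 : (tlV x) ⟨0, hm⟩ = (0 : Vec m) ⟨0, hm⟩ := by rw [h0]
  exact h1

/-- Almost surely a standard Gaussian vector of `ℝ^m`, `m ≥ 1`, is not the origin. -/
theorem ae_gauss_ne_zero {m : ℕ} (hm : 1 ≤ m) : ∀ᵐ q ∂(stdGaussian (Vec m)), q ≠ 0 := by
  refine blkAux_ae_of_coord ⟨0, hm⟩ _ (fun x hx => ?_)
  have h0 : x = 0 := not_not.mp hx
  rw [h0]
  rfl

end Vale.Agent.Lib.P309
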