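import Vale.Agent.Lib.P309.Geo.GaussIndep
import Vale.Agent.Lib.P309.Multi.LQ
import Vale.Agent.Lib.P309.Prof.Defs

namespace Vale.Agent.Lib.P309

open MeasureTheory ProbabilityTheory Metric Set
open scoped ENNReal

/-- Independent standard Gaussian vectors, at most as many as the dimension, are almost surely
linearly independent. -/
theorem ae_linearIndependent_gaussian_le {d n : ℕ} (h : n ≤ d) :
    ∀ᵐ X ∂(Measure.pi (fun _ : Fin n => stdGaussian (Vec d))), LinearIndependent ℝ X := by
  induction n with
  | zero =>
    exact Filter.Eventually.of_forall (fun X => linearIndependent_empty_type)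
  | succ n ih =>
    have hn : n < d := by omega
    have ih' := ih hn.le
    have hA : MeasurableSet {X : Fin (n + 1) → Vec d | LinearIndependent ℝ X} :=
      (isOpen_setOfPred_linearIndependent (𝕜 := ℝ) (E := Vec d) (ι := Fin (n + 1))).measurableSet
    have mp := measurePreserving_piFinSuccAbove (fun _ : Fin (n + 1) => stdGaussian (Vec d)) 0
    have mps := mp.symm
    rw [ae_iff]
    have hAc : MeasurableSet {X : Fin (n + 1) → Vec d | ¬ LinearIndependent ℝ X} := hA.compl
    rw [← mps.measure_preimage hAc.nullMeasurableSet]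
    have hpre : MeasurableSet ((MeasurableEquiv.piFinSuccAbove (fun _ : Fin (n + 1) => Vec d) 0).symm
        ⁻¹' {X : Fin (n + 1) → Vec d | ¬ LinearIndependent ℝ X}) :=
      (MeasurableEquiv.piFinSuccAbove (fun _ : Fin (n + 1) => Vec d) 0).symm.measurable hAc
    rw [Measure.prod_apply_symm hpre]
    have hzero : ∀ᵐ f ∂(Measure.pi (fun _ : Fin n => stdGaussian (Vec d))),
        stdGaussian (Vec d) ((fun x : Vec d => (x, f)) ⁻¹'
          ((MeasurableEquiv.piFinSuccAbove (fun _ : Fin (n + 1) => Vec d) 0).symm
            ⁻¹' {X : Fin (n + 1) → Vec d | ¬ LinearIndependent ℝ X})) = 0 := by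
      filter_upwards [ih'] with f hf
      refine measure_mono_null ?_ (stdGaussian_span_null hn f)
      intro x hx
      have hx' : ¬ LinearIndependent ℝ
          ((MeasurableEquiv.piFinSuccAbove (fun _ : Fin (n + 1) => Vec d) 0).symm (x, f)) := hx
      have hcons : (MeasurableEquiv.piFinSuccAbove (fun _ : Fin (n + 1) => Vec d) 0).symm (x, f)
          = (Fin.cons x f : Fin (n + 1) → Vec d) := by
        simp [MeasurableEquiv.piFinSuccAbove, Fin.insertNthEquiv]
      rw [hcons, linearIndependent_finCons] at hx'
      by_contra hxs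
      exact hx' ⟨hf, hxs⟩
    rw [lintegral_congr_ae hzero]
    simp

/-- The frame law is concentrated on orthonormal families (also for full frames). -/
theorem frameLaw_orthonormal_le {d n : ℕ} (h : n ≤ d) :
    ∀ᵐ b ∂(frameLaw d n), Orthonormal ℝ b := by
  unfold frameLaw
  rw [ae_map_iff measurable_gsN.aemeasurable lqh_measurableSet_orthonormal]
  filter_upwards [ae_linearIndependent_gaussian_le h] with X hX
  exact gsN_orthonormal hX

/-- The first Gram-Schmidt vector of a family of one vector is the direction of the vector. -/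
theorem frameLe_gsN_zero {m : ℕ} (w : Fin 1 → Vec m) : gsN w 0 = dirV (w 0) := by
  have h0 : InnerProductSpace.gramSchmidt ℝ w 0 = w 0 := InnerProductSpace.gramSchmidt_bot ℝ w
  simp [gsN, dirV, InnerProductSpace.gramSchmidtNormed, h0]

/-- The frame law of one vector is the law of the direction of a standard Gaussian vector. -/
theorem lintegral_frameLaw_one {m : ℕ} (H : Vec m → ℝ≥0∞) (hH : Measurable H) :
    ∫⁻ b, H (b 0) ∂(frameLaw m 1) = ∫⁻ q, H (dirV q) ∂(stdGaussian (Vec m)) := by
  have hdir : Measurable (fun q : Vec m => H (dirV q)) := by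
    unfold dirV
    exact hH.comp ((measurable_norm.inv).smul measurable_id)
  have hf : Measurable (fun b : Fin 1 → Vec m => H (b 0)) := hH.comp (measurable_pi_apply 0)
  unfold frameLaw
  rw [lintegral_map hf measurable_gsN]
  calc ∫⁻ w, H (gsN w 0) ∂(Measure.pi (fun _ : Fin 1 => stdGaussian (Vec m)))
      = ∫⁻ w, (fun q : Vec m => H (dirV q)) (Function.eval 0 w)
          ∂(Measure.pi (fun _ : Fin 1 => stdGaussian (Vec m))) :=
        lintegral_congr (fun w => by rw [frameLe_gsN_zero])
    _ = ∫⁻ q, H (dirV q) ∂(stdGaussian (Vec m)) :=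
        (measurePreserving_eval (μ := fun _ : Fin 1 => stdGaussian (Vec m)) 0).lintegral_comp hdir

end Vale.Agent.Lib.P309
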