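import Vale.Agent.Lib.P309.Multi.Unique
import Vale.Agent.Lib.P309.Prof.Basic
import Vale.Agent.Lib.P309.Prof.FrameLe
import Vale.Agent.Lib.P309.Stage.Mix

namespace Vale.Agent.Lib.P309

open MeasureTheory ProbabilityTheory Metric Set
open scoped ENNReal

/-- The combinations of a frame with fixed coefficient vectors depend measurably on the
frame. -/
theorem frameMix_measurable {K N : ℕ} (f : Fin N → Vec K) :
    Measurable (fun e : Fin K → Vec K => fun l : Fin N => mix (f l) e) :=
  measurable_pi_lambda _
    (fun _ => measurable_mix.comp (measurable_const.prodMk measurable_id))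

/-- Applying a linear isometry to all the vectors of a frame commutes with taking
combinations of the frame. -/
theorem frameMix_comp {K N : ℕ} (f : Fin N → Vec K) (O : Vec K ≃ₗᵢ[ℝ] Vec K) :
    (fun b : Fin N → Vec K => fun i => O (b i)) ∘
        (fun e : Fin K → Vec K => fun l : Fin N => mix (f l) e)
      = (fun e : Fin K → Vec K => fun l : Fin N => mix (f l) e) ∘
        (fun e : Fin K → Vec K => fun i => O (e i)) := by
  funext e
  funext l
  simp only [Function.comp_apply]
  unfold mix
  rw [map_sum]
  simp only [map_smul]

/-- Mixing invariance of the frame law: the combinations of a full Gram-Schmidt Gaussian frame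
of `ℝ^K` with the coefficient vectors of an orthonormal family `f` of `N` vectors of `ℝ^K` have
the frame law of `N` vectors. -/
theorem frame_mix {K N : ℕ} (f : Fin N → Vec K) (hf : Orthonormal ℝ f) :
    (frameLaw K K).map (fun e : Fin K → Vec K => fun l : Fin N => mix (f l) e)
      = frameLaw K N := by
  have hNK : N ≤ K := by
    have h := hf.linearIndependent.fintype_card_le_finrank
    simpa using h
  have hmeas := frameMix_measurable f
  have : IsProbabilityMeasure (frameLaw K K) := lqh_frameLaw_prob
  have : IsProbabilityMeasure (frameLaw K N) := lqh_frameLaw_prob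
  have : IsProbabilityMeasure
      ((frameLaw K K).map (fun e : Fin K → Vec K => fun l : Fin N => mix (f l) e)) :=
    Measure.isProbabilityMeasure_map hmeas.aemeasurable
  refine frame_measure_unique hNK _ _ ?_ ?_ (frameLaw_orthonormal_le hNK) ?_
    (fun O => lqh_frameLaw_map O)
  · rw [measure_univ, measure_univ]
  · rw [ae_map_iff hmeas.aemeasurable lqh_measurableSet_orthonormal]
    filter_upwards [frameLaw_orthonormal_le (le_refl K)] with e he
    exact orthonormal_mix he hf
  · intro O
    rw [Measure.map_map (lqh_measurable_isoFam O) hmeas, frameMix_comp f O,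
      ← Measure.map_map hmeas (lqh_measurable_isoFam O), lqh_frameLaw_map O]

end Vale.Agent.Lib.P309
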