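import Vale.Agent.Lib.P309.Prof.Meas

namespace Vale.Agent.Lib.P309

open MeasureTheory ProbabilityTheory Metric Set
open scoped ENNReal

/-- The combinations of a frame with fixed coefficient vectors depend measurably on the
frame. -/
theorem npointAux_measurable_mix {K N : ℕ} (f : Fin N → Vec K) :
    Measurable (fun e : Fin K → Vec K => fun l : Fin N => mix (f l) e) := by
  refine measurable_pi_lambda _ (fun l => ?_)
  have h : (fun e : Fin K → Vec K => mix (f l) e)
      = (fun p : Vec K × (Fin K → Vec K) => mix p.1 p.2) ∘ (fun e => (f l, e)) := rfl
  rw [h]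
  exact measurable_mix_pair.comp (measurable_const.prodMk measurable_id)

end Vale.Agent.Lib.P309
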