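import Vale.Agent.Lib.P309.Multi.LQ
import Vale.Agent.Lib.P309.Prof.Basic

namespace Vale.Agent.Lib.P309

open MeasureTheory ProbabilityTheory Metric Set
open scoped ENNReal

/-- The orthonormal family of the resampling configuration: the direction of the first part of
`γ`, followed by the Gram-Schmidt family of `Q` placed in the last coordinates. -/
noncomputable def npApplyF {n m N : ℕ} (γ : Vec (n + m)) (Q : Fin N → Vec m) :
    Fin (N + 1) → Vec (n + m) :=
  Fin.cases (glueV (dirV (hdV γ)) 0) (fun k => glueV 0 (gsN Q k))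

/-- The coefficients of the resampling configuration; the row `0` is a dummy. -/
noncomputable def npApplyL {n m N : ℕ} (γ : Vec (n + m)) (Q : Fin N → Vec m) :
    Fin (N + 1) → Fin (N + 1) → ℝ :=
  Fin.cases (Fin.cases 1 (fun _ => 0))
    (fun k => Fin.cases ‖hdV γ‖ (fun l => ‖tlV γ‖ * lqCoef Q k l / ‖Q k‖))

theorem npApply_glueV_zero {n m : ℕ} : glueV (0 : Vec n) (0 : Vec m) = 0 := by
  have h := glueV_smul (0 : ℝ) (0 : Vec n) (0 : Vec m)
  rw [zero_smul, zero_smul, zero_smul] at h
  exact h

theorem npApply_glueV_sum {n m N : ℕ} (b : Fin N → Vec m) (s : Finset (Fin N)) :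
    ∑ l ∈ s, glueV (0 : Vec n) (b l) = glueV (0 : Vec n) (∑ l ∈ s, b l) := by
  classical
  induction s using Finset.induction_on with
  | empty => rw [Finset.sum_empty, Finset.sum_empty, npApply_glueV_zero]
  | insert a s ha ih =>
    rw [Finset.sum_insert ha, Finset.sum_insert ha, ih, ← glueV_add, add_zero]

theorem npApply_orthonormal {n m N : ℕ} (γ : Vec (n + m)) (hγ1 : hdV γ ≠ 0)
    (Q : Fin N → Vec m) (hQ : LinearIndependent ℝ Q) : Orthonormal ℝ (npApplyF γ Q) := by
  rw [orthonormal_iff_ite]
  have hon := orthonormal_iff_ite.mp (gsN_orthonormal hQ)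
  intro i j
  induction i using Fin.cases with
  | zero =>
    induction j using Fin.cases with
    | zero =>
      simp only [npApplyF, Fin.cases_zero]
      rw [inner_glueV, real_inner_self_eq_norm_sq, norm_dirV hγ1, inner_zero_left]
      simp
    | succ l =>
      simp only [npApplyF, Fin.cases_zero, Fin.cases_succ]
      rw [inner_glueV, inner_zero_right, inner_zero_left, if_neg (Fin.succ_ne_zero l).symm]
      simp
  | succ k =>
    induction j using Fin.cases with
    | zero =>
      simp only [npApplyF, Fin.cases_zero, Fin.cases_succ]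
      rw [inner_glueV, inner_zero_left, inner_zero_right, if_neg (Fin.succ_ne_zero k)]
      simp
    | succ l =>
      simp only [npApplyF, Fin.cases_succ]
      rw [inner_glueV, inner_zero_left, zero_add, hon k l]
      simp only [Fin.succ_inj]

/-- The rows of the configuration are the resampled coordinate vectors. -/
theorem npApply_row {n m N : ℕ} (γ : Vec (n + m)) (Q : Fin N → Vec m)
    (hQ : LinearIndependent ℝ Q) (k : Fin N) :
    ∑ l, npApplyL γ Q k.succ l • npApplyF γ Q l = rsV γ (Q k) := by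
  rw [Fin.sum_univ_succ]
  simp only [npApplyL, npApplyF, Fin.cases_zero, Fin.cases_succ]
  have h1 : ‖hdV γ‖ • glueV (dirV (hdV γ)) (0 : Vec m) = glueV (hdV γ) (0 : Vec m) := by
    rw [← glueV_smul, norm_smul_dirV, smul_zero]
  have h2 : ∀ l : Fin N, (‖tlV γ‖ * lqCoef Q k l / ‖Q k‖) • glueV (0 : Vec n) (gsN Q l) =
      glueV (0 : Vec n) ((‖tlV γ‖ * lqCoef Q k l / ‖Q k‖) • gsN Q l) := by
    intro l
    rw [← glueV_smul, smul_zero]
  have h3 : ∑ l, (‖tlV γ‖ * lqCoef Q k l / ‖Q k‖) • gsN Q l = ‖tlV γ‖ • dirV (Q k) := by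
    have hexp := gsN_expand hQ k
    have e : ∀ l : Fin N, (‖tlV γ‖ * lqCoef Q k l / ‖Q k‖) • gsN Q l =
        (‖tlV γ‖ * ‖Q k‖⁻¹) • (inner ℝ (gsN Q l) (Q k) • gsN Q l) := by
      intro l
      rw [smul_smul]
      congr 1
      simp only [lqCoef]
      ring
    rw [Finset.sum_congr rfl (fun l _ => e l), ← Finset.smul_sum, ← hexp, mul_smul]
    rfl
  rw [h1, Finset.sum_congr rfl (fun l _ => h2 l), npApply_glueV_sum, h3, ← glueV_add,
    add_zero, zero_add]
  rfl

end Vale.Agent.Lib.P309
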