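import Vale.Agent.Lib.P309.Prof.Blk
import Vale.Agent.Lib.P309.Prof.GaussIso
import Vale.Agent.Lib.P309.Prof.Meas

namespace Vale.Agent.Lib.P309

open MeasureTheory ProbabilityTheory Metric Set
open scoped ENNReal

/-- The squared norm of a combination of an orthonormal family. -/
theorem seqStep_norm_sum_sq {K N : ℕ} (e : Fin N → Vec K) (he : Orthonormal ℝ e)
    (a : Fin N → ℝ) : ‖∑ l, a l • e l‖ ^ 2 = ∑ l, a l ^ 2 := by
  rw [← real_inner_self_eq_norm_sq, he.inner_sum]
  refine Finset.sum_congr rfl fun l _ => ?_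
  simp [sq]

/-- A combination of vectors orthogonal to `y` is orthogonal to `y`. -/
theorem seqStep_inner_sum_right {K N : ℕ} (e : Fin N → Vec K) (y : Vec K)
    (hort : ∀ l, inner ℝ (e l) y = 0) (a : Fin N → ℝ) :
    inner ℝ y (∑ l, a l • e l) = 0 := by
  rw [inner_sum]
  refine Finset.sum_eq_zero fun l _ => ?_
  rw [inner_smul_right, real_inner_comm, hort l, mul_zero]

/-- A combination along a frame orthogonal to `y` is orthogonal to `y`. -/
theorem seqStep_inner_mix_right {d K : ℕ} (c : Fin K → Vec d) (y : Vec d)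
    (hort : ∀ l, inner ℝ (c l) y = 0) (v : Vec K) :
    inner ℝ y (mix v c) = 0 := by
  unfold mix
  rw [inner_sum]
  refine Finset.sum_eq_zero fun l _ => ?_
  rw [inner_smul_right, real_inner_comm, hort l, mul_zero]

/-- The part of `x` orthogonal to the first vectors of an orthonormal basis is the combination
of the remaining basis vectors with the coordinates of `x`. -/
theorem seqStep_proj {N K' : ℕ} (β : OrthonormalBasis (Fin (N + K')) ℝ (Vec (N + K')))
    (x : Vec (N + K')) :
    x - ∑ l : Fin N, inner ℝ (β (Fin.castAdd K' l)) x • β (Fin.castAdd K' l)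
      = mix (rowCo (fun j : Fin K' => β (Fin.natAdd N j)) x)
          (fun j : Fin K' => β (Fin.natAdd N j)) := by
  have h := β.sum_repr' x
  rw [Fin.sum_univ_add] at h
  rw [sub_eq_iff_eq_add]
  unfold mix rowCo
  exact h.symm.trans (add_comm _ _)

theorem seq_step {d K N K₀ : ℕ} (s₀ : Sph d) (hK₀ : 1 ≤ K₀) (hK : K₀ + N ≤ K)
    (c : Fin K → Vec d) (z : Vec d) (r : ℝ) (hsub : IsSub c z r)
    (G : Sph d → ℝ≥0∞) (hG : Measurable G) (φ : ℝ → ℝ≥0∞) (hprof : ProfLe s₀ G K₀ φ)
    (e : Fin N → Vec K) (he : Orthonormal ℝ e) (a : Fin N → ℝ) (lam : ℝ) (hlam : 0 < lam) :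
    ∫⁻ x, G (subPt s₀ c z r
        ((∑ l, a l • e l) + lam • dirV (x - ∑ l, inner ℝ (e l) x • e l)))
        ∂(stdGaussian (Vec K))
      ≤ φ (r * lam / Real.sqrt ((∑ l, a l ^ 2) + lam ^ 2)) := by
  have hNK : N ≤ K := by omega
  obtain ⟨K', rfl⟩ := Nat.exists_eq_add_of_le hNK
  have hK' : K₀ ≤ K' := by omega
  have hK'1 : 1 ≤ K' := by omega
  obtain ⟨β, hβ⟩ := frmU_exists_basis (Nat.le_add_right N K') he
  have he' : ∀ l, e l = β (Fin.castAdd K' l) := fun l => (hβ l).symm
  set b : Fin K' → Vec (N + K') := fun j => β (Fin.natAdd N j) with hb_def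
  have hb : Orthonormal ℝ b := β.orthonormal.comp _ (Fin.natAdd_injective K' N)
  have hort : ∀ l j, inner ℝ (e l) (b j) = 0 := by
    intro l j
    rw [he' l]
    refine β.orthonormal.2 ?_
    intro h
    have := congrArg Fin.val h
    simp at this
    omega
  set w : Vec (N + K') := ∑ l, a l • e l with hw_def
  have hw2 : ‖w‖ ^ 2 = ∑ l, a l ^ 2 := seqStep_norm_sum_sq e he a
  set A : ℝ := ∑ l, a l ^ 2 with hA_def
  have hA0 : 0 ≤ A := Finset.sum_nonneg fun l _ => sq_nonneg _
  set ν : ℝ := Real.sqrt (A + lam ^ 2) with hν_def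
  have hpos : 0 < A + lam ^ 2 := by positivity
  have hν : 0 < ν := Real.sqrt_pos.mpr hpos
  have hν2 : ν ^ 2 = A + lam ^ 2 := Real.sq_sqrt hpos.le
  set c' : Fin K' → Vec d := fun j => mix (b j) c with hc'_def
  set z' : Vec d := z + (r / ν) • mix w c with hz'_def
  set r' : ℝ := r * lam / ν with hr'_def
  have hzw : inner ℝ z (mix w c) = 0 := seqStep_inner_mix_right c z hsub.orth w
  have hsub' : IsSub c' z' r' := by
    refine ⟨orthonormal_mix hsub.on hb, fun j => ?_, div_pos (mul_pos hsub.pos hlam) hν, ?_⟩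
    · have h1 : inner ℝ (mix (b j) c) z = 0 := by
        rw [real_inner_comm]
        exact seqStep_inner_mix_right c z hsub.orth (b j)
      have h2 : inner ℝ (b j) w = 0 :=
        seqStep_inner_sum_right e (b j) (fun l => hort l j) a
      show inner ℝ (mix (b j) c) (z + (r / ν) • mix w c) = 0
      rw [inner_add_right, inner_smul_right, inner_mix_mix hsub.on, h1, h2]
      ring
    · show ‖z + (r / ν) • mix w c‖ ^ 2 + (r * lam / ν) ^ 2 = 1
      rw [norm_add_sq_real, inner_smul_right, hzw, norm_smul, norm_mix hsub.on, mul_pow,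
        Real.norm_eq_abs, sq_abs, hw2]
      have hu := hsub.unit
      have h3 : (r / ν) ^ 2 * A + (r * lam / ν) ^ 2 = r ^ 2 := by
        have h4 : (r / ν) ^ 2 * A + (r * lam / ν) ^ 2 = r ^ 2 * (A + lam ^ 2) / ν ^ 2 := by
          field_simp
        rw [h4, ← hν2]
        field_simp
      linarith
  have hmix : Measurable fun g : Vec K' => mix g b :=
    measurable_mix_pair.comp (measurable_id.prodMk measurable_const)
  have hF : Measurable fun g : Vec K' =>
      G (subPt s₀ c z r (w + lam • dirV (mix g b))) :=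
    hG.comp ((measurable_subPt s₀ c z r).comp
      (measurable_const.add ((measurable_dirV.comp hmix).const_smul lam)))
  calc ∫⁻ x, G (subPt s₀ c z r
          (w + lam • dirV (x - ∑ l, inner ℝ (e l) x • e l)))
          ∂(stdGaussian (Vec (N + K')))
      = ∫⁻ x, (fun g : Vec K' => G (subPt s₀ c z r (w + lam • dirV (mix g b))))
          (rowCo b x) ∂(stdGaussian (Vec (N + K'))) := by
        refine lintegral_congr fun x => ?_
        have hx : x - ∑ l, inner ℝ (e l) x • e l = mix (rowCo b x) b := by
          have := seqStep_proj β x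
          simp only [← he'] at this
          exact this
        rw [hx]
    _ = ∫⁻ g, G (subPt s₀ c z r (w + lam • dirV (mix g b))) ∂(stdGaussian (Vec K')) := by
        rw [← gauss_rowCo b hb, lintegral_map hF (measurable_rowCo b)]
    _ = ∫⁻ g, G (subPt s₀ c' z' r' g) ∂(stdGaussian (Vec K')) := by
        refine lintegral_congr_ae ?_
        filter_upwards [ae_gauss_ne_zero hK'1] with g hg
        have hu : dirV (mix g b) = mix (dirV g) b := dirV_mix hb g
        have hun : ‖mix (dirV g) b‖ = 1 := by rw [norm_mix hb, norm_dirV hg]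
        have hwu : inner ℝ w (mix (dirV g) b) = 0 := by
          rw [real_inner_comm]
          refine seqStep_inner_sum_right e _ (fun l => ?_) a
          exact seqStep_inner_mix_right b (e l) (fun j => by
            rw [real_inner_comm]; exact hort l j) (dirV g)
        have hγn : ‖w + lam • mix (dirV g) b‖ = ν := by
          have h2 : ‖w + lam • mix (dirV g) b‖ ^ 2 = ν ^ 2 := by
            rw [norm_add_sq_real, inner_smul_right, hwu, norm_smul, hun, Real.norm_eq_abs,
              abs_of_pos hlam, hw2, hν2]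
            ring
          exact (sq_eq_sq₀ (norm_nonneg _) hν.le).mp h2
        have hdir : dirV (w + lam • mix (dirV g) b) = ν⁻¹ • (w + lam • mix (dirV g) b) := by
          show ‖w + lam • mix (dirV g) b‖⁻¹ • (w + lam • mix (dirV g) b) = _
          rw [hγn]
        show G (subPt s₀ c z r (w + lam • dirV (mix g b))) = G (subPt s₀ c' z' r' g)
        congr 1
        rw [hu]
        show dirS s₀ (z + r • mix (dirV (w + lam • mix (dirV g) b)) c)
          = dirS s₀ (z' + r' • mix (dirV g) c')
        congr 1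
        rw [hdir, mix_smul, mix_add, mix_smul, mix_mix]
        show z + r • ν⁻¹ • (mix w c + lam • mix (dirV g) c')
          = z + (r / ν) • mix w c + (r * lam / ν) • mix (dirV g) c'
        rw [smul_add, smul_add, smul_smul, smul_smul, smul_smul, add_assoc]
        have e1 : r * ν⁻¹ = r / ν := (div_eq_mul_inv r ν).symm
        have e2 : r / ν * lam = r * lam / ν := by field_simp
        rw [e1, e2]
    _ = subAvg s₀ G c' z' r' := rfl
    _ ≤ φ r' := hprof K' hK' c' z' r' hsub'

end Vale.Agent.Lib.P309
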