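import Mathlib

namespace Vale.Agent.Lib.P309

open MeasureTheory ProbabilityTheory Metric Set
open scoped ENNReal

theorem measurable_fin_append {E : Type*} [MeasurableSpace E] (n m : ℕ) :
    Measurable (fun p : (Fin n → E) × (Fin m → E) => (Fin.append p.1 p.2 : Fin (n + m) → E)) := by
  refine measurable_pi_lambda _ (fun i => ?_)
  refine Fin.addCases (fun i => ?_) (fun j => ?_) i
  · simp only [Fin.append_left]
    exact (measurable_pi_apply i).comp measurable_fst
  · simp only [Fin.append_right]
    exact (measurable_pi_apply j).comp measurable_snd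

/-- Appending two independent families of independent identically distributed variables gives
a family of independent identically distributed variables. -/
theorem pi_append_law {E : Type*} [MeasurableSpace E] (μ : Measure E) [IsProbabilityMeasure μ]
    (n m : ℕ) :
    ((Measure.pi (fun _ : Fin n => μ)).prod (Measure.pi (fun _ : Fin m => μ))).map
        (fun p => (Fin.append p.1 p.2 : Fin (n + m) → E))
      = Measure.pi (fun _ : Fin (n + m) => μ) := by
  symm
  refine Measure.pi_eq (fun s hs => ?_)
  rw [Measure.map_apply (measurable_fin_append n m) (MeasurableSet.univ_pi hs)]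
  have hpre : (fun p : (Fin n → E) × (Fin m → E) => (Fin.append p.1 p.2 : Fin (n + m) → E)) ⁻¹'
        (Set.pi univ s)
      = (Set.pi univ (fun i => s (Fin.castAdd m i))) ×ˢ
          (Set.pi univ (fun j => s (Fin.natAdd n j))) := by
    ext p
    simp only [mem_preimage, mem_pi, mem_univ, true_implies, mem_prod]
    constructor
    · intro h
      refine ⟨fun i => ?_, fun j => ?_⟩
      · have h1 := h (Fin.castAdd m i)
        rwa [Fin.append_left] at h1
      · have h2 := h (Fin.natAdd n j)
        rwa [Fin.append_right] at h2
    · rintro ⟨h1, h2⟩ i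
      refine Fin.addCases (fun i => ?_) (fun j => ?_) i
      · rw [Fin.append_left]
        exact h1 i
      · rw [Fin.append_right]
        exact h2 j
  rw [hpre, Measure.prod_prod, Measure.pi_pi, Measure.pi_pi, Fin.prod_univ_add]

theorem measurable_fin_snoc {E : Type*} [MeasurableSpace E] (N : ℕ) :
    Measurable (fun p : (Fin N → E) × E => (Fin.snoc p.1 p.2 : Fin (N + 1) → E)) := by
  refine measurable_pi_lambda _ (fun i => ?_)
  refine Fin.lastCases ?_ (fun j => ?_) i
  · simp only [Fin.snoc_last]
    exact measurable_snd
  · simp only [Fin.snoc_castSucc]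
    exact (measurable_pi_apply j).comp measurable_fst

/-- Adding one more independent variable at the end of a family of independent identically
distributed variables gives a family of independent identically distributed variables. -/
theorem piSplit_snoc_law {E : Type*} [MeasurableSpace E] (μ : Measure E)
    [IsProbabilityMeasure μ] (N : ℕ) :
    ((Measure.pi (fun _ : Fin N => μ)).prod μ).map
        (fun p => (Fin.snoc p.1 p.2 : Fin (N + 1) → E))
      = Measure.pi (fun _ : Fin (N + 1) => μ) := by
  symm
  refine Measure.pi_eq (fun s hs => ?_)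
  rw [Measure.map_apply (measurable_fin_snoc N) (MeasurableSet.univ_pi hs)]
  have hpre : (fun p : (Fin N → E) × E => (Fin.snoc p.1 p.2 : Fin (N + 1) → E)) ⁻¹'
        (Set.pi univ s)
      = (Set.pi univ (fun i => s (Fin.castSucc i))) ×ˢ (s (Fin.last N)) := by
    ext p
    simp only [mem_preimage, mem_pi, mem_univ, true_implies, mem_prod]
    constructor
    · intro h
      refine ⟨fun i => ?_, ?_⟩
      · have h1 := h (Fin.castSucc i)
        rwa [Fin.snoc_castSucc] at h1
      · have h2 := h (Fin.last N)
        rwa [Fin.snoc_last] at h2
    · rintro ⟨h1, h2⟩ i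
      refine Fin.lastCases ?_ (fun j => ?_) i
      · rw [Fin.snoc_last]
        exact h2
      · rw [Fin.snoc_castSucc]
        exact h1 j
  rw [hpre, Measure.prod_prod, Measure.pi_pi, Fin.prod_univ_castSucc]

/-- Integration over a family of `N + 1` independent identically distributed variables, the
last variable being integrated first. -/
theorem lintegral_pi_snoc {E : Type*} [MeasurableSpace E] (μ : Measure E)
    [IsProbabilityMeasure μ] (N : ℕ) (F : (Fin (N + 1) → E) → ℝ≥0∞) (hF : Measurable F) :
    ∫⁻ w, F w ∂(Measure.pi (fun _ : Fin (N + 1) => μ))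
      = ∫⁻ g, ∫⁻ x, F (Fin.snoc g x : Fin (N + 1) → E) ∂μ ∂(Measure.pi (fun _ : Fin N => μ)) := by
  rw [← piSplit_snoc_law μ N, lintegral_map hF (measurable_fin_snoc N),
    lintegral_prod (fun p : (Fin N → E) × E => F (Fin.snoc p.1 p.2 : Fin (N + 1) → E))
      (hF.comp (measurable_fin_snoc N)).aemeasurable]

end Vale.Agent.Lib.P309
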