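import Vale.Agent.Lib.P309.Prof.Dyadic
import Vale.Agent.Lib.P309.Prof.Rsb

namespace Vale.Agent.Lib.P309

open MeasureTheory ProbabilityTheory Metric Set
open scoped ENNReal

/-- Bessel: the residual of the expansion along an orthonormal family is not longer than the
vector. -/
theorem ratioMom_resid_le {a j : ℕ} (u : Fin j → Vec a) (hu : Orthonormal ℝ u) (g : Vec a) :
    ‖g - ∑ l, inner ℝ (u l) g • u l‖ ≤ ‖g‖ := by
  set p : Vec a := ∑ l, inner ℝ (u l) g • u l with hp
  have h1 : ∀ l, inner ℝ (u l) p = inner ℝ (u l) g := fun l =>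
    hu.inner_right_fintype (fun l => inner ℝ (u l) g) l
  have h3 : ∀ l, inner ℝ (g - p) (u l) = 0 := by
    intro l
    rw [inner_sub_left, real_inner_comm, real_inner_comm (u l) p, h1 l]
    ring
  have h2 : inner ℝ (g - p) p = 0 := by
    rw [hp, inner_sum]
    apply Finset.sum_eq_zero
    intro l _
    rw [inner_smul_right, ← hp, h3 l, mul_zero]
  have h4 := norm_add_sq_eq_norm_sq_add_norm_sq_real h2
  rw [sub_add_cancel] at h4
  have h5 : ‖g - p‖ * ‖g - p‖ ≤ ‖g‖ * ‖g‖ := by
    rw [h4]
    have := mul_self_nonneg ‖p‖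
    linarith
  exact (mul_self_le_mul_self_iff (norm_nonneg _) (norm_nonneg _)).mpr h5

/-- Negative moments of the relative norm of the part of a standard Gaussian vector orthogonal
to an orthonormal family of `j` vectors. -/
theorem ratio_moment {a j D : ℕ} (hD : j + D + 1 ≤ a) (u : Fin j → Vec a)
    (hu : Orthonormal ℝ u) :
    ∫⁻ g, ((ENNReal.ofReal (‖g - ∑ l, inner ℝ (u l) g • u l‖ / ‖g‖))⁻¹) ^ D
        ∂(stdGaussian (Vec a))
      ≤ (2 : ℝ≥0∞) ^ (a + D + 1) := by
  have hcont : Continuous (fun g : Vec a => g - ∑ l, inner ℝ (u l) g • u l) := by fun_prop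
  have hm : Measurable (fun g : Vec a => ‖g - ∑ l, inner ℝ (u l) g • u l‖ / ‖g‖) :=
    hcont.norm.measurable.div continuous_norm.measurable
  have h := dyadic_moment (stdGaussian (Vec a))
    (fun g : Vec a => ‖g - ∑ l, inner ℝ (u l) g • u l‖ / ‖g‖) hm
    (fun g => div_nonneg (norm_nonneg _) (norm_nonneg _))
    (fun g => div_le_one_of_le₀ (ratioMom_resid_le u hu g) (norm_nonneg _))
    ((2 : ℝ) ^ j) (by positivity) (a - j) D (by omega)
    (by
      intro t ht
      refine le_trans (measure_mono ?_) (ratio_small_ball u hu ht)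
      intro g hg
      simp only [Set.mem_ofPred_eq] at hg ⊢
      by_cases hg0 : ‖g‖ = 0
      · have hz : g = 0 := norm_eq_zero.mp hg0
        subst hz
        simp
      · have hpos : 0 < ‖g‖ := lt_of_le_of_ne (norm_nonneg _) (Ne.symm hg0)
        exact (div_le_iff₀ hpos).mp hg)
  refine le_trans h (le_of_eq ?_)
  have hpow : (2 : ℝ) ^ j * 2 ^ (a - j + D + 1) = 2 ^ (a + D + 1) := by
    rw [← pow_add]
    congr 1
    omega
  rw [hpow, ENNReal.ofReal_pow (by norm_num)]
  norm_num

/-- Negative moments of the relative norm of the last `m` coordinates of a standard Gaussian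
vector of `ℝ^(n+m)`. -/
theorem tail_moment {n m D : ℕ} (hD : D + 1 ≤ m) :
    ∫⁻ γ, ((ENNReal.ofReal (‖tlV γ‖ / ‖γ‖))⁻¹) ^ D ∂(stdGaussian (Vec (n + m)))
      ≤ (2 : ℝ≥0∞) ^ (n + m + D + 1) := by
  have hon : Orthonormal ℝ
      (fun i : Fin n => (EuclideanSpace.single (Fin.castAdd m i) (1 : ℝ) : Vec (n + m))) :=
    (EuclideanSpace.orthonormal_single (𝕜 := ℝ) (ι := Fin (n + m))).comp _
      (Fin.castAdd_injective n m)
  have h := ratio_moment (a := n + m) (j := n) (D := D) (by omega) _ hon
  have hnorm : ∀ γ : Vec (n + m),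
      ‖γ - ∑ l : Fin n, inner ℝ (EuclideanSpace.single (Fin.castAdd m l) (1 : ℝ) : Vec (n + m)) γ
        • (EuclideanSpace.single (Fin.castAdd m l) (1 : ℝ) : Vec (n + m))‖ = ‖tlV γ‖ := by
    intro γ
    have hv : γ - ∑ l : Fin n,
        inner ℝ (EuclideanSpace.single (Fin.castAdd m l) (1 : ℝ) : Vec (n + m)) γ
          • (EuclideanSpace.single (Fin.castAdd m l) (1 : ℝ) : Vec (n + m))
        = glueV (0 : Vec n) (tlV γ) := by
      ext k
      refine Fin.addCases (fun i => ?_) (fun j => ?_) k
      · have hs : ∀ x : Fin n, (Pi.single (Fin.castAdd m x) (1 : ℝ) : Fin (n + m) → ℝ)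
            (Fin.castAdd m i) = if x = i then 1 else 0 := by
          intro x
          rw [Pi.single_apply]
          simp [Fin.castAdd_inj, eq_comm]
        simp [glueV, tlV, EuclideanSpace.inner_single_left, Fin.append_left, hs]
      · have hs : ∀ x : Fin n, (Pi.single (Fin.castAdd m x) (1 : ℝ) : Fin (n + m) → ℝ)
            (Fin.natAdd n j) = 0 := by
          intro x
          rw [Pi.single_apply, if_neg]
          intro h
          have h2 := congrArg Fin.val h
          simp only [Fin.val_natAdd, Fin.val_castAdd] at h2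
          omega
        simp [glueV, tlV, EuclideanSpace.inner_single_left, Fin.append_right, hs]
    rw [hv]
    have hsq := norm_glueV_sq (0 : Vec n) (tlV γ)
    rw [norm_zero] at hsq
    have hsq' : ‖glueV (0 : Vec n) (tlV γ)‖ ^ 2 = ‖tlV γ‖ ^ 2 := by
      rw [hsq]; ring
    exact (sq_eq_sq₀ (norm_nonneg _) (norm_nonneg _)).mp hsq'
  simpa only [hnorm] using h

end Vale.Agent.Lib.P309
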