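import Vale.Agent.Lib.P309.Prof.Defs
import Vale.Agent.Lib.P309.Stage.DiagMono

namespace Vale.Agent.Lib.P309

open MeasureTheory ProbabilityTheory Metric Set
open scoped ENNReal

/-- The Gram-Schmidt vectors of a family extended by one last vector start with the
Gram-Schmidt vectors of the family. -/
lemma gssnoc_gs_castSucc {K N : ℕ} (g : Fin N → Vec K) (x : Vec K) (k : Fin N) :
    InnerProductSpace.gramSchmidt ℝ (Fin.snoc g x : Fin (N + 1) → Vec K) (Fin.castSucc k)
      = InnerProductSpace.gramSchmidt ℝ g k := by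
  refine wellFounded_lt.induction
    (C := fun k => InnerProductSpace.gramSchmidt ℝ (Fin.snoc g x : Fin (N + 1) → Vec K)
      (Fin.castSucc k) = InnerProductSpace.gramSchmidt ℝ g k) k (fun k ih => ?_)
  rw [gsaux_formula, gsaux_formula g k, ← Fin.map_castSuccEmb_Iio, Finset.sum_map,
    Fin.snoc_castSucc]
  congr 1
  refine Finset.sum_congr rfl (fun i hi => ?_)
  have hi' : i < k := Finset.mem_Iio.1 hi
  rw [Fin.coe_castSuccEmb, ih i hi']

/-- One term of the Gram-Schmidt recursion in terms of the normalised vector. -/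
lemma gssnoc_term {K : ℕ} (G x : Vec K) :
    (inner ℝ G x / ‖G‖ ^ 2) • G = inner ℝ (‖G‖⁻¹ • G) x • (‖G‖⁻¹ • G) := by
  rw [real_inner_smul_left, smul_smul]
  congr 1
  rw [div_eq_mul_inv, pow_two, mul_inv]
  ring

/-- The last Gram-Schmidt vector of a family extended by one last vector. -/
lemma gssnoc_gs_last {K N : ℕ} (g : Fin N → Vec K) (x : Vec K) :
    InnerProductSpace.gramSchmidt ℝ (Fin.snoc g x : Fin (N + 1) → Vec K) (Fin.last N)
      = x - ∑ l : Fin N, inner ℝ (gsN g l) x • gsN g l := by
  rw [gsaux_formula, Fin.Iio_last_eq_map, Finset.sum_map, Fin.snoc_last]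
  congr 1
  refine Finset.sum_congr rfl (fun l _ => ?_)
  rw [Fin.coe_castSuccEmb, gssnoc_gs_castSucc, diagmono_gsN, gssnoc_term]

/-- The Gram-Schmidt family of a family extended by one last vector starts with the
Gram-Schmidt family of the family. -/
theorem gsN_snoc_castSucc {K N : ℕ} (g : Fin N → Vec K) (x : Vec K) (k : Fin N) :
    gsN (Fin.snoc g x : Fin (N + 1) → Vec K) (Fin.castSucc k) = gsN g k := by
  rw [diagmono_gsN, diagmono_gsN, gssnoc_gs_castSucc]

/-- The last Gram-Schmidt vector of a family extended by one last vector `x` is the direction of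
the part of `x` orthogonal to the Gram-Schmidt family of the family. -/
theorem gsN_snoc_last {K N : ℕ} (g : Fin N → Vec K) (x : Vec K) :
    gsN (Fin.snoc g x : Fin (N + 1) → Vec K) (Fin.last N)
      = dirV (x - ∑ l : Fin N, inner ℝ (gsN g l) x • gsN g l) := by
  rw [diagmono_gsN, gssnoc_gs_last]
  rfl

theorem lqCoef_snoc_last {K N : ℕ} (g : Fin N → Vec K) (x : Vec K) :
    lqCoef (Fin.snoc g x : Fin (N + 1) → Vec K) (Fin.last N) (Fin.last N)
      = ‖x - ∑ l : Fin N, inner ℝ (gsN g l) x • gsN g l‖ := by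
  rw [diagmono_lqCoef_diag, gssnoc_gs_last]

end Vale.Agent.Lib.P309
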