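import Vale.Agent.Lib.P309.Prof.Meas

namespace Vale.Agent.Lib.P309

open MeasureTheory ProbabilityTheory Metric Set
open scoped ENNReal

/-- The value of `Γ` at the resampled point is jointly measurable in the frame and the
resampling vector. -/
theorem stgC_meas_pt {d n m : ℕ} (s₀ : Sph d) (c : Fin (n + m) → Vec d) (z : Vec d) (r : ℝ)
    (Γ : Sph d → ℝ≥0∞) (hΓ : Measurable Γ) (γ : Vec (n + m)) :
    Measurable (fun p : (Fin (n + m) → Vec (n + m)) × Vec m =>
      Γ (subPt s₀ c z r (mix (rsV γ p.2) p.1))) := by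
  have h0 : Measurable (fun p : (Fin (n + m) → Vec (n + m)) × Vec m =>
      ((γ, p.2) : Vec (n + m) × Vec m)) :=
    Measurable.prodMk measurable_const measurable_snd
  have h0' := (measurable_rsV (n := n) (m := m)).comp h0
  have h1 : Measurable (fun p : (Fin (n + m) → Vec (n + m)) × Vec m =>
      ((rsV γ p.2, p.1) : Vec (n + m) × (Fin (n + m) → Vec (n + m)))) :=
    Measurable.prodMk h0' measurable_fst
  have h2 := (measurable_subPt_mix s₀ c z r).comp h1
  have h3 := hΓ.comp h2
  exact h3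

/-- The value of `Γ` at the resampled point is measurable in the resampling vector, for a
fixed frame. -/
theorem stgC_meas_pt_right {d n m : ℕ} (s₀ : Sph d) (c : Fin (n + m) → Vec d) (z : Vec d)
    (r : ℝ) (Γ : Sph d → ℝ≥0∞) (hΓ : Measurable Γ) (γ : Vec (n + m))
    (e : Fin (n + m) → Vec (n + m)) :
    Measurable (fun q : Vec m => Γ (subPt s₀ c z r (mix (rsV γ q) e))) := by
  have h3 : Measurable (fun q : Vec m => (e, q)) := measurable_prodMk_left
  have h4 := (stgC_meas_pt s₀ c z r Γ hΓ γ).comp h3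
  exact h4

/-- The product of the values of `Γ` at the `N` resampled points is jointly measurable in the
frame and the family of resampling vectors. -/
theorem stgC_meas_prod {d n m N : ℕ} (s₀ : Sph d) (c : Fin (n + m) → Vec d) (z : Vec d) (r : ℝ)
    (Γ : Sph d → ℝ≥0∞) (hΓ : Measurable Γ) (γ : Vec (n + m)) :
    Measurable (fun p : (Fin (n + m) → Vec (n + m)) × (Fin N → Vec m) =>
      ∏ k : Fin N, Γ (subPt s₀ c z r (mix (rsV γ (p.2 k)) p.1))) := by
  refine Finset.measurable_fun_prod _ (fun k _ => ?_)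
  have h1 : Measurable (fun p : (Fin (n + m) → Vec (n + m)) × (Fin N → Vec m) =>
      ((p.1, p.2 k) : (Fin (n + m) → Vec (n + m)) × Vec m)) :=
    Measurable.prodMk measurable_fst ((measurable_pi_apply k).comp measurable_snd)
  have h2 := (stgC_meas_pt s₀ c z r Γ hΓ γ).comp h1
  exact h2

/-- The radial profile at a product of radii. -/
theorem stgC_profFn_mul (D : ℕ) (A τ : ℝ≥0∞) (ρ x : ℝ) (hρ : 0 ≤ ρ) :
    profFn D A τ (ρ * x)
      = (A * ((ENNReal.ofReal ρ)⁻¹) ^ D) * ((ENNReal.ofReal x)⁻¹) ^ D + τ := by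
  unfold profFn
  rw [ENNReal.ofReal_mul hρ,
    ENNReal.mul_inv (Or.inr ENNReal.ofReal_ne_top) (Or.inl ENNReal.ofReal_ne_top), mul_pow,
    mul_assoc]

end Vale.Agent.Lib.P309
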