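import Mathlib

namespace Vale.Agent.Lib.P309

open MeasureTheory ProbabilityTheory Metric Set
open scoped ENNReal

/-- Cancellation of a truncation level against a moment bound of the same size. -/
theorem profStage_inv_pow (E N : ℕ) (B : ℝ≥0∞) :
    (((2 : ℝ≥0∞) ^ E * B)⁻¹) ^ N * B ^ N ≤ ((2 : ℝ≥0∞) ^ (E * N))⁻¹ := by
  have h2 : ((2 : ℝ≥0∞) ^ E) ≠ 0 := pow_ne_zero _ two_ne_zero
  have h2t : ((2 : ℝ≥0∞) ^ E) ≠ ⊤ := ENNReal.pow_ne_top ENNReal.ofNat_ne_top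
  rw [← mul_pow, pow_mul, ENNReal.inv_pow]
  refine pow_le_pow_left' ?_ N
  by_cases hB0 : B = 0
  · simp [hB0]
  by_cases hBt : B = ⊤
  · simp [hBt, ENNReal.mul_top h2]
  rw [ENNReal.mul_inv (Or.inl h2) (Or.inl h2t), mul_assoc, ENNReal.inv_mul_cancel hB0 hBt,
    mul_one]

end Vale.Agent.Lib.P309
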