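import Vale.Agent.Lib.P309.Multi.GaussDir
import Vale.Agent.Lib.P309.Prof.Blk
import Vale.Agent.Lib.P309.Prof.FrameMix
import Vale.Agent.Lib.P309.Prof.GaussIso
import Vale.Agent.Lib.P309.Prof.Meas

namespace Vale.Agent.Lib.P309

open MeasureTheory ProbabilityTheory Metric Set
open scoped ENNReal

/-- Rotating the last `m` coordinates by an orthonormal frame does not change a Gaussian
integral. -/
theorem resample_rot {n m : ℕ} (F : Vec (n + m) → ℝ≥0∞) (hF : Measurable F)
    {O : Fin m → Vec m} (hO : Orthonormal ℝ O) :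
    ∫⁻ γ, F (glueV (hdV γ) (mix (tlV γ) O)) ∂(stdGaussian (Vec (n + m)))
      = ∫⁻ γ, F γ ∂(stdGaussian (Vec (n + m))) := by
  have h := lintegral_gauss_mix (blkFr (n := n) O) (blkFr_orthonormal hO) F hF
  rw [← h]
  apply lintegral_congr
  intro γ
  rw [mix_blkFr]

/-- The rotated vector is jointly measurable in the frame and the vector. -/
theorem resample_meas {n m : ℕ} (F : Vec (n + m) → ℝ≥0∞) (hF : Measurable F) :
    Measurable (fun p : (Fin m → Vec m) × Vec (n + m) =>
      F (glueV (hdV p.2) (mix (tlV p.2) p.1))) := by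
  have h1 : Measurable (fun p : (Fin m → Vec m) × Vec (n + m) => hdV p.2) :=
    measurable_hdV.comp measurable_snd
  have h2 : Measurable (fun p : (Fin m → Vec m) × Vec (n + m) => mix (tlV p.2) p.1) :=
    measurable_mix_pair.comp ((measurable_tlV.comp measurable_snd).prodMk measurable_fst)
  exact hF.comp (measurable_glueV.comp (h1.prodMk h2))

/-- Averaging over a random frame of the last `m` coordinates resamples their direction. -/
theorem resample_frame {n m : ℕ} (F : Vec (n + m) → ℝ≥0∞) (hF : Measurable F)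
    (γ : Vec (n + m)) (hγ : tlV γ ≠ 0) :
    ∫⁻ O, F (glueV (hdV γ) (mix (tlV γ) O)) ∂(frameLaw m m)
      = ∫⁻ q, F (rsV γ q) ∂(stdGaussian (Vec m)) := by
  have hsm : Measurable (fun u : Vec m => ‖tlV γ‖ • u) := measurable_const_smul _
  have hpair : Measurable (fun u : Vec m => (hdV γ, ‖tlV γ‖ • u)) :=
    measurable_const.prodMk hsm
  have hH : Measurable (fun u : Vec m => F (glueV (hdV γ) (‖tlV γ‖ • u))) :=
    hF.comp (measurable_glueV.comp hpair)
  have hf : Orthonormal ℝ (fun _ : Fin 1 => dirV (tlV γ)) := by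
    rw [gdir_orthonormal_iff]
    exact norm_dirV hγ
  have hmap : Measurable
      (fun e : Fin m → Vec m => fun _ : Fin 1 => mix (dirV (tlV γ)) e) :=
    measurable_pi_lambda _
      (fun _ => measurable_mix_pair.comp (measurable_const.prodMk measurable_id))
  have hH0 : Measurable (fun b : Fin 1 → Vec m => F (glueV (hdV γ) (‖tlV γ‖ • b 0))) :=
    hH.comp (measurable_pi_apply 0)
  have h1 : ∫⁻ O, F (glueV (hdV γ) (mix (tlV γ) O)) ∂(frameLaw m m)
      = ∫⁻ O, F (glueV (hdV γ) (‖tlV γ‖ • mix (dirV (tlV γ)) O)) ∂(frameLaw m m) := by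
    apply lintegral_congr
    intro O
    rw [← mix_smul, norm_smul_dirV]
  have h2 := lintegral_map (μ := frameLaw m m) hH0 hmap
  rw [frame_mix (fun _ : Fin 1 => dirV (tlV γ)) hf] at h2
  have h3 := lintegral_frameLaw_one (fun u : Vec m => F (glueV (hdV γ) (‖tlV γ‖ • u))) hH
  exact h1.trans (h2.symm.trans h3)

/-- Resampling identity.  For a standard Gaussian vector `γ` of `ℝ^(n+m)`, the direction of the
last `m` coordinates is independent of the first `n` coordinates and of the norm of the last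
`m` coordinates, and it is distributed as the direction of a standard Gaussian vector of
`ℝ^m`. -/
theorem lintegral_resample {n m : ℕ} (hm : 1 ≤ m) (F : Vec (n + m) → ℝ≥0∞) (hF : Measurable F) :
    ∫⁻ γ, F γ ∂(stdGaussian (Vec (n + m)))
      = ∫⁻ γ, ∫⁻ q, F (rsV γ q) ∂(stdGaussian (Vec m)) ∂(stdGaussian (Vec (n + m))) := by
  have : IsProbabilityMeasure (frameLaw m m) := lqh_frameLaw_prob
  have hB : ∫⁻ O, ∫⁻ γ, F (glueV (hdV γ) (mix (tlV γ) O)) ∂(stdGaussian (Vec (n + m)))
        ∂(frameLaw m m)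
      = ∫⁻ γ, F γ ∂(stdGaussian (Vec (n + m))) := by
    have h1 : ∫⁻ O, ∫⁻ γ, F (glueV (hdV γ) (mix (tlV γ) O)) ∂(stdGaussian (Vec (n + m)))
          ∂(frameLaw m m)
        = ∫⁻ _, (∫⁻ γ, F γ ∂(stdGaussian (Vec (n + m)))) ∂(frameLaw m m) := by
      apply lintegral_congr_ae
      filter_upwards [frameLaw_orthonormal_le (le_refl m)] with O hO
      exact resample_rot F hF hO
    rw [h1, lintegral_const, measure_univ, mul_one]
  have hC : ∫⁻ O, ∫⁻ γ, F (glueV (hdV γ) (mix (tlV γ) O)) ∂(stdGaussian (Vec (n + m)))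
        ∂(frameLaw m m)
      = ∫⁻ γ, ∫⁻ O, F (glueV (hdV γ) (mix (tlV γ) O)) ∂(frameLaw m m)
        ∂(stdGaussian (Vec (n + m))) :=
    lintegral_lintegral_swap (resample_meas F hF).aemeasurable
  have hD : ∫⁻ γ, ∫⁻ O, F (glueV (hdV γ) (mix (tlV γ) O)) ∂(frameLaw m m)
        ∂(stdGaussian (Vec (n + m)))
      = ∫⁻ γ, ∫⁻ q, F (rsV γ q) ∂(stdGaussian (Vec m)) ∂(stdGaussian (Vec (n + m))) := by
    apply lintegral_congr_ae
    filter_upwards [ae_tlV_ne_zero (n := n) hm] with γ hγ
    exact resample_frame F hF γ hγ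
  rw [← hB, hC, hD]

end Vale.Agent.Lib.P309
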