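import Vale.Agent.Lib.P309.Prof.Labels
import Vale.Agent.Lib.P309.Prof.Resample

namespace Vale.Agent.Lib.P309

open MeasureTheory ProbabilityTheory Metric Set
open scoped ENNReal

/-- The signal point is a measurable function of the coordinate vector in a fixed frame. -/
theorem stageB_meas_pt {d K : ℕ} (s₀ : Sph d) (c : Fin K → Vec d) (z : Vec d) (r : ℝ)
    (e : Fin K → Vec K) : Measurable (fun γ : Vec K => subPt s₀ c z r (mix γ e)) := by
  have h1 : Measurable (fun γ : Vec K => ((γ, e) : Vec K × (Fin K → Vec K))) :=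
    measurable_prodMk_right
  have h2 := (measurable_subPt_mix s₀ c z r).comp h1
  exact h2

/-- The resampled signal point is a measurable function of the resampling vector. -/
theorem stageB_meas_rs {d n m : ℕ} (s₀ : Sph d) (c : Fin (n + m) → Vec d) (z : Vec d) (r : ℝ)
    (X : Fin n → Vec d) (h : Fin m → Vec (n + m)) (γ : Vec (n + m)) :
    Measurable (fun q : Vec m => subPt s₀ c z r (mix (rsV γ q) (rowFr c X h))) := by
  have h0 : Measurable (fun q : Vec m => ((γ, q) : Vec (n + m) × Vec m)) :=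
    measurable_prodMk_left
  have h1 : Measurable (fun q : Vec m =>
      ((((X, h), (γ, q)) : ((Fin n → Vec d) × (Fin m → Vec (n + m))) × (Vec (n + m) × Vec m)))) :=
    measurable_prodMk_left.comp h0
  have h2 := (measurable_subPt_rs s₀ c z r).comp h1
  exact h2

/-- Resampling inside a stage: since the weights only depend on the labels of the rows, the
value of `Γ p` at the signal may be replaced by its resampling average. -/
theorem stage_resample {d n m : ℕ} {P : Type} [Fintype P] (s₀ : Sph d) (hm : 1 ≤ m)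
    (c : Fin (n + m) → Vec d) (z : Vec d) (r : ℝ) (hsub : IsSub c z r)
    (μ : P → (Fin n → Vec d) → Sph d → ℝ≥0∞)
    (hμm : ∀ p, Measurable (fun q : (Fin n → Vec d) × Sph d => μ p q.1 q.2))
    (hμlab : ∀ p X (s s' : Sph d),
      (∀ j, inner ℝ (X j) (s : Vec d) = inner ℝ (X j) (s' : Vec d)) → μ p X s = μ p X s')
    (Γ : P → Sph d → ℝ≥0∞) (hΓm : ∀ p, Measurable (Γ p))
    (X : Fin n → Vec d) (h : Fin m → Vec (n + m)) (he : Orthonormal ℝ (rowFr c X h)) :
    ∫⁻ γ, ∑ p, μ p X (subPt s₀ c z r (mix γ (rowFr c X h)))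
          * Γ p (subPt s₀ c z r (mix γ (rowFr c X h))) ∂(stdGaussian (Vec (n + m)))
      = ∫⁻ γ, ∑ p, μ p X (subPt s₀ c z r (mix γ (rowFr c X h)))
          * rsAvg s₀ c z r (Γ p) X h γ ∂(stdGaussian (Vec (n + m))) := by
  classical
  have hSm : Measurable (fun γ : Vec (n + m) => subPt s₀ c z r (mix γ (rowFr c X h))) :=
    stageB_meas_pt s₀ c z r (rowFr c X h)
  have hμS : ∀ p, Measurable (fun γ : Vec (n + m) =>
      μ p X (subPt s₀ c z r (mix γ (rowFr c X h)))) := by
    intro p
    have h1 : Measurable (fun γ : Vec (n + m) =>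
        ((X, subPt s₀ c z r (mix γ (rowFr c X h))) : (Fin n → Vec d) × Sph d)) :=
      measurable_prodMk_left.comp hSm
    have h2 := (hμm p).comp h1
    exact h2
  have hΓS : ∀ p, Measurable (fun γ : Vec (n + m) =>
      Γ p (subPt s₀ c z r (mix γ (rowFr c X h)))) := fun p => (hΓm p).comp hSm
  have hF : Measurable (fun γ : Vec (n + m) =>
      ∑ p, μ p X (subPt s₀ c z r (mix γ (rowFr c X h)))
          * Γ p (subPt s₀ c z r (mix γ (rowFr c X h)))) :=
    Finset.measurable_sum _ (fun p _ => (hμS p).mul (hΓS p))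
  rw [lintegral_resample hm _ hF]
  refine lintegral_congr (fun γ => ?_)
  have hstep : ∫⁻ q, ∑ p, μ p X (subPt s₀ c z r (mix (rsV γ q) (rowFr c X h)))
          * Γ p (subPt s₀ c z r (mix (rsV γ q) (rowFr c X h))) ∂(stdGaussian (Vec m))
      = ∫⁻ q, ∑ p, μ p X (subPt s₀ c z r (mix γ (rowFr c X h)))
          * Γ p (subPt s₀ c z r (mix (rsV γ q) (rowFr c X h))) ∂(stdGaussian (Vec m)) := by
    refine lintegral_congr_ae ?_
    filter_upwards [ae_gauss_ne_zero hm] with q hq
    refine Finset.sum_congr rfl (fun p _ => ?_)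
    have hlab : μ p X (subPt s₀ c z r (mix (rsV γ q) (rowFr c X h)))
        = μ p X (subPt s₀ c z r (mix γ (rowFr c X h))) :=
      hμlab p X _ _ (fun j =>
        labels_eq s₀ c z r hsub X h he γ (rsV γ q) (hdV_rsV γ q) (norm_rsV γ hq) j)
    rw [hlab]
  rw [hstep]
  have hq : ∀ p, Measurable (fun q : Vec m =>
      Γ p (subPt s₀ c z r (mix (rsV γ q) (rowFr c X h)))) :=
    fun p => (hΓm p).comp (stageB_meas_rs s₀ c z r X h γ)
  rw [lintegral_finsetSum _ (fun p _ => (hq p).const_mul _)]
  refine Finset.sum_congr rfl (fun p _ => ?_)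
  rw [lintegral_const_mul _ (hq p)]
  rfl

end Vale.Agent.Lib.P309
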