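import Mathlib

namespace Vale.Agent.Lib.P309

open MeasureTheory ProbabilityTheory Metric Set
open scoped ENNReal

/-- The pointwise form of the truncation bound. -/
lemma truncAux_point (x a θ : ℝ≥0∞) (hx : x ≤ 1) (ha : a ≤ 1) (N : ℕ) :
    x * a ≤ x * θ + a ^ N * (θ⁻¹) ^ N := by
  by_cases h : a ≤ θ
  · exact le_trans (mul_le_mul' le_rfl h) le_self_add
  · have hlt : θ < a := lt_of_not_ge h
    have h1 : 1 ≤ a * θ⁻¹ := by
      by_cases h0 : θ = 0
      · have ha0 : a ≠ 0 := by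
          intro ha0
          rw [ha0, h0] at hlt
          exact lt_irrefl _ hlt
        rw [h0, ENNReal.inv_zero, ENNReal.mul_top ha0]
        exact le_top
      · have htop : θ ≠ ⊤ := ne_top_of_lt (lt_of_lt_of_le hlt ha)
        calc (1 : ℝ≥0∞) = θ * θ⁻¹ := (ENNReal.mul_inv_cancel h0 htop).symm
          _ ≤ a * θ⁻¹ := mul_le_mul' hlt.le le_rfl
    have h2 : 1 ≤ a ^ N * (θ⁻¹) ^ N := by
      rw [← mul_pow]
      exact one_le_pow_of_one_le' h1 N
    have h3 : x * a ≤ 1 := mul_le_one' hx ha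
    exact le_trans (le_trans h3 h2) le_add_self

/-- Truncation and union bound: a weighted average of numbers `a p ≤ 1` is at most a level `θ`
plus the sum of the `N`-th powers of the ratios `a p / θ`. -/
theorem trunc_union {P : Type} [Fintype P] (w a : P → ℝ≥0∞) (hw : ∑ p, w p ≤ 1)
    (ha : ∀ p, a p ≤ 1) (θ : ℝ≥0∞) (N : ℕ) :
    ∑ p, w p * a p ≤ θ + ∑ p, (a p) ^ N * (θ⁻¹) ^ N := by
  have hwp : ∀ p, w p ≤ 1 := fun p =>
    le_trans (Finset.single_le_sum (f := w) (fun _ _ => zero_le) (Finset.mem_univ p)) hw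
  calc ∑ p, w p * a p ≤ ∑ p, (w p * θ + (a p) ^ N * (θ⁻¹) ^ N) :=
        Finset.sum_le_sum (fun p _ => truncAux_point (w p) (a p) θ (hwp p) (ha p) N)
    _ = (∑ p, w p) * θ + ∑ p, (a p) ^ N * (θ⁻¹) ^ N := by
        rw [Finset.sum_add_distrib, Finset.sum_mul]
    _ ≤ 1 * θ + ∑ p, (a p) ^ N * (θ⁻¹) ^ N := add_le_add (mul_le_mul' hw le_rfl) le_rfl
    _ = θ + ∑ p, (a p) ^ N * (θ⁻¹) ^ N := by rw [one_mul]

end Vale.Agent.Lib.P309
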