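import Vale.Agent.Lib.P309.Prof.StageA
import Vale.Agent.Lib.P309.Prof.StageB
import Vale.Agent.Lib.P309.Prof.Trunc

namespace Vale.Agent.Lib.P309

open MeasureTheory ProbabilityTheory Metric Set
open scoped ENNReal

/-- Tonelli for three variables: a factor that only depends on the last variable may be taken
out of the two inner integrals after the last variable is moved outside. -/
theorem stageD_swap {α β Ω' : Type*} [MeasurableSpace α] [MeasurableSpace β]
    [MeasurableSpace Ω'] (μa : Measure α) (μb : Measure β) (μc : Measure Ω') [SFinite μa]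
    [SFinite μb] [SFinite μc] (A : (α × β) × Ω' → ℝ≥0∞) (hA : Measurable A) (B : Ω' → ℝ≥0∞)
    (hB : Measurable B) :
    ∫⁻ x, ∫⁻ y, ∫⁻ w, A ((x, y), w) * B w ∂μc ∂μb ∂μa
      = ∫⁻ w, B w * ∫⁻ x, ∫⁻ y, A ((x, y), w) ∂μb ∂μa ∂μc := by
  have hT : Measurable (fun q : (α × β) × Ω' => A q * B q.2) :=
    hA.mul (hB.comp measurable_snd)
  have h1 : ∫⁻ x, ∫⁻ y, ∫⁻ w, A ((x, y), w) * B w ∂μc ∂μb ∂μa
      = ∫⁻ q, ∫⁻ w, A (q, w) * B w ∂μc ∂(μa.prod μb) := by
    rw [lintegral_prod _ (hT.lintegral_prod_right').aemeasurable]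
  rw [h1, lintegral_lintegral_swap hT.aemeasurable]
  refine lintegral_congr (fun w => ?_)
  have hAw : Measurable (fun q : α × β => A (q, w)) := hA.comp measurable_prodMk_right
  rw [lintegral_mul_const _ hAw, mul_comm, lintegral_prod _ hAw.aemeasurable]

/-- Upper bound for the subsphere average after one stage, with an arbitrary measurable
truncation level `θ`: the mean level plus, for each memory content, the `N`-th moment of the
resampling average weighted by `θ^(-N)`. -/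
theorem stage_upper {d n m N : ℕ} {P : Type} [Fintype P] (s₀ : Sph d) (hm : 1 ≤ m)
    (c : Fin (n + m) → Vec d) (z : Vec d) (r : ℝ) (hsub : IsSub c z r)
    (μ : P → (Fin n → Vec d) → Sph d → ℝ≥0∞)
    (hμm : ∀ p, Measurable (fun q : (Fin n → Vec d) × Sph d => μ p q.1 q.2))
    (hμ1 : ∀ X s, ∑ p, μ p X s ≤ 1)
    (hμlab : ∀ p X (s s' : Sph d),
      (∀ j, inner ℝ (X j) (s : Vec d) = inner ℝ (X j) (s' : Vec d)) → μ p X s = μ p X s')
    (Γ : P → Sph d → ℝ≥0∞) (hΓm : ∀ p, Measurable (Γ p)) (hΓ1 : ∀ p s, Γ p s ≤ 1)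
    (θ : Vec (n + m) → ℝ≥0∞) (hθ : Measurable θ) :
    subAvg s₀ (fun s => ∫⁻ X, ∑ p, μ p X s * Γ p s
        ∂(Measure.pi (fun _ : Fin n => stdGaussian (Vec d)))) c z r
      ≤ ∫⁻ γ, θ γ ∂(stdGaussian (Vec (n + m)))
        + ∑ p, ∫⁻ γ, ((θ γ)⁻¹) ^ N * ∫⁻ X, ∫⁻ h, (rsAvg s₀ c z r (Γ p) X h γ) ^ N
            ∂(Measure.pi (fun _ : Fin m => stdGaussian (Vec (n + m))))
            ∂(Measure.pi (fun _ : Fin n => stdGaussian (Vec d)))
            ∂(stdGaussian (Vec (n + m))) := by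
  classical
  have hS : Measurable (subPt s₀ c z r) := measurable_subPt s₀ c z r
  -- the integrand of the subsphere average, jointly in the rows and the coordinates
  obtain ⟨F, hFdef⟩ : ∃ F : (Fin n → Vec d) × Vec (n + m) → ℝ≥0∞,
      F = fun q => ∑ p, μ p q.1 (subPt s₀ c z r q.2) * Γ p (subPt s₀ c z r q.2) := ⟨_, rfl⟩
  have hF : Measurable F := by
    rw [hFdef]
    refine Finset.measurable_sum _ (fun p _ => ?_)
    exact ((hμm p).comp (measurable_fst.prodMk (hS.comp measurable_snd))).mul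
      ((hΓm p).comp (hS.comp measurable_snd))
  have hL : subAvg s₀ (fun s => ∫⁻ X, ∑ p, μ p X s * Γ p s
        ∂(Measure.pi (fun _ : Fin n => stdGaussian (Vec d)))) c z r
      = ∫⁻ γ, ∫⁻ X, F (X, γ) ∂(Measure.pi (fun _ : Fin n => stdGaussian (Vec d)))
        ∂(stdGaussian (Vec (n + m))) := by
    rw [hFdef]
    rfl
  rw [hL, stage_frame_change c hsub.on F hF]
  -- measurability of the moment and of the weight
  have hA : ∀ p, Measurable
      (fun q : ((Fin n → Vec d) × (Fin m → Vec (n + m))) × Vec (n + m) =>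
        (rsAvg s₀ c z r (Γ p) q.1.1 q.1.2 q.2) ^ N) := fun p =>
    (measurable_rsAvg s₀ c z r (Γ p) (hΓm p)).pow_const N
  have hB : Measurable (fun γ : Vec (n + m) => ((θ γ)⁻¹) ^ N) := hθ.inv.pow_const N
  have hT : ∀ p, Measurable
      (fun q : ((Fin n → Vec d) × (Fin m → Vec (n + m))) × Vec (n + m) =>
        (rsAvg s₀ c z r (Γ p) q.1.1 q.1.2 q.2) ^ N * ((θ q.2)⁻¹) ^ N) := fun p =>
    (hA p).mul (hB.comp measurable_snd)
  have hv : ∀ p, Measurable (fun q : (Fin n → Vec d) × (Fin m → Vec (n + m)) =>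
      ∫⁻ γ, (rsAvg s₀ c z r (Γ p) q.1 q.2 γ) ^ N * ((θ γ)⁻¹) ^ N
        ∂(stdGaussian (Vec (n + m)))) := fun p => (hT p).lintegral_prod_right'
  -- resampling, truncation and the union bound, for almost every frame
  have hb : ∫⁻ X, ∫⁻ h, ∫⁻ γ, F (X, mix γ (rowFr c X h)) ∂(stdGaussian (Vec (n + m)))
          ∂(Measure.pi (fun _ : Fin m => stdGaussian (Vec (n + m))))
          ∂(Measure.pi (fun _ : Fin n => stdGaussian (Vec d)))
      ≤ ∫⁻ X, ∫⁻ h, (∫⁻ γ, θ γ ∂(stdGaussian (Vec (n + m)))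
            + ∑ p, ∫⁻ γ, (rsAvg s₀ c z r (Γ p) X h γ) ^ N * ((θ γ)⁻¹) ^ N
                ∂(stdGaussian (Vec (n + m))))
          ∂(Measure.pi (fun _ : Fin m => stdGaussian (Vec (n + m))))
          ∂(Measure.pi (fun _ : Fin n => stdGaussian (Vec d))) := by
    refine lintegral_mono_ae ?_
    filter_upwards [rowFr_ae_orthonormal c hsub.on] with X hX
    refine lintegral_mono_ae ?_
    filter_upwards [hX] with h he
    have h1 : ∫⁻ γ, F (X, mix γ (rowFr c X h)) ∂(stdGaussian (Vec (n + m)))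
        = ∫⁻ γ, ∑ p, μ p X (subPt s₀ c z r (mix γ (rowFr c X h)))
            * rsAvg s₀ c z r (Γ p) X h γ ∂(stdGaussian (Vec (n + m))) := by
      rw [hFdef]
      exact stage_resample s₀ hm c z r hsub μ hμm hμlab Γ hΓm X h he
    have h2 : ∫⁻ γ, ∑ p, μ p X (subPt s₀ c z r (mix γ (rowFr c X h)))
            * rsAvg s₀ c z r (Γ p) X h γ ∂(stdGaussian (Vec (n + m)))
        ≤ ∫⁻ γ, (θ γ + ∑ p, (rsAvg s₀ c z r (Γ p) X h γ) ^ N * ((θ γ)⁻¹) ^ N)
            ∂(stdGaussian (Vec (n + m))) :=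
      lintegral_mono (fun γ => trunc_union _ _ (hμ1 X _)
        (fun p => rsAvg_le_one s₀ c z r (Γ p) (hΓ1 p) X h γ) (θ γ) N)
    rw [h1]
    refine h2.trans (le_of_eq ?_)
    rw [lintegral_add_left hθ, lintegral_finsetSum]
    intro p _
    have h3 := (hT p).comp (measurable_prodMk_left (x := (X, h)))
    exact h3
  -- the level and the sum come out of the integrals over the frame
  have hc : ∫⁻ X, ∫⁻ h, (∫⁻ γ, θ γ ∂(stdGaussian (Vec (n + m)))
            + ∑ p, ∫⁻ γ, (rsAvg s₀ c z r (Γ p) X h γ) ^ N * ((θ γ)⁻¹) ^ N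
                ∂(stdGaussian (Vec (n + m))))
          ∂(Measure.pi (fun _ : Fin m => stdGaussian (Vec (n + m))))
          ∂(Measure.pi (fun _ : Fin n => stdGaussian (Vec d)))
      = ∫⁻ γ, θ γ ∂(stdGaussian (Vec (n + m)))
        + ∑ p, ∫⁻ X, ∫⁻ h, ∫⁻ γ, (rsAvg s₀ c z r (Γ p) X h γ) ^ N * ((θ γ)⁻¹) ^ N
            ∂(stdGaussian (Vec (n + m)))
            ∂(Measure.pi (fun _ : Fin m => stdGaussian (Vec (n + m))))
            ∂(Measure.pi (fun _ : Fin n => stdGaussian (Vec d))) := by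
    have h1 : ∀ X : Fin n → Vec d,
        ∫⁻ h, (∫⁻ γ, θ γ ∂(stdGaussian (Vec (n + m)))
            + ∑ p, ∫⁻ γ, (rsAvg s₀ c z r (Γ p) X h γ) ^ N * ((θ γ)⁻¹) ^ N
                ∂(stdGaussian (Vec (n + m))))
          ∂(Measure.pi (fun _ : Fin m => stdGaussian (Vec (n + m))))
        = ∫⁻ γ, θ γ ∂(stdGaussian (Vec (n + m)))
          + ∑ p, ∫⁻ h, ∫⁻ γ, (rsAvg s₀ c z r (Γ p) X h γ) ^ N * ((θ γ)⁻¹) ^ N
              ∂(stdGaussian (Vec (n + m)))
              ∂(Measure.pi (fun _ : Fin m => stdGaussian (Vec (n + m)))) := by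
      intro X
      rw [lintegral_add_left measurable_const, lintegral_const, measure_univ, mul_one,
        lintegral_finsetSum]
      intro p _
      have h3 := (hv p).comp (measurable_prodMk_left (x := X))
      exact h3
    rw [lintegral_congr h1, lintegral_add_left measurable_const, lintegral_const, measure_univ,
      mul_one, lintegral_finsetSum]
    intro p _
    have h3 := (hv p).lintegral_prod_right'
      (ν := Measure.pi (fun _ : Fin m => stdGaussian (Vec (n + m))))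
    exact h3
  refine hb.trans (le_of_eq ?_)
  rw [hc]
  congr 1
  refine Finset.sum_congr rfl (fun p _ => ?_)
  exact stageD_swap _ _ _ (fun q => (rsAvg s₀ c z r (Γ p) q.1.1 q.1.2 q.2) ^ N) (hA p)
    (fun γ => ((θ γ)⁻¹) ^ N) hB

end Vale.Agent.Lib.P309
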