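import Vale.Agent.Lib.P309.Prof.FrameLe
import Vale.Agent.Lib.P309.Prof.GaussIso
import Vale.Agent.Lib.P309.Prof.Meas
import Vale.Agent.Lib.P309.Prof.PiSplit

namespace Vale.Agent.Lib.P309

open MeasureTheory ProbabilityTheory Metric Set
open scoped ENNReal

/-- Taking the coordinates of every row along a frame is measurable. -/
theorem rwf_measurable_rows {d K n : ℕ} (c : Fin K → Vec d) :
    Measurable (fun X : Fin n → Vec d => fun j : Fin n => rowCo c (X j)) :=
  measurable_pi_lambda _ (fun j => (measurable_rowCo c).comp (measurable_pi_apply j))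

/-- The coordinate vectors of independent standard Gaussian rows along an orthonormal family
are independent standard Gaussian vectors. -/
theorem rwf_rows_law {d K n : ℕ} (c : Fin K → Vec d) (hc : Orthonormal ℝ c) :
    (Measure.pi (fun _ : Fin n => stdGaussian (Vec d))).map
        (fun X : Fin n → Vec d => fun j : Fin n => rowCo c (X j))
      = Measure.pi (fun _ : Fin n => stdGaussian (Vec K)) := by
  have hO : (stdGaussian (Vec d)).map (rowCo c) = stdGaussian (Vec K) := gauss_rowCo c hc
  have hs : ∀ _ : Fin n, SigmaFinite ((stdGaussian (Vec d)).map (rowCo c)) := by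
    intro _
    rw [hO]
    infer_instance
  rw [Measure.pi_map_pi (μ := fun _ : Fin n => stdGaussian (Vec d))
    (f := fun _ : Fin n => rowCo c) (fun _ => (measurable_rowCo c).aemeasurable)]
  simp only [hO]

/-- The coordinate vectors of the rows followed by the auxiliary vectors: measurability. -/
theorem rwf_measurable_psi {d n m : ℕ} (c : Fin (n + m) → Vec d) :
    Measurable (fun p : (Fin n → Vec d) × (Fin m → Vec (n + m)) =>
      (Fin.append (fun j : Fin n => rowCo c (p.1 j)) p.2 : Fin (n + m) → Vec (n + m))) :=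
  (measurable_fin_append n m).comp ((rwf_measurable_rows c).prodMap measurable_id)

/-- The coordinate vectors of the rows followed by the auxiliary vectors are independent
standard Gaussian vectors. -/
theorem rwf_psi_law {d n m : ℕ} (c : Fin (n + m) → Vec d) (hc : Orthonormal ℝ c) :
    ((Measure.pi (fun _ : Fin n => stdGaussian (Vec d))).prod
        (Measure.pi (fun _ : Fin m => stdGaussian (Vec (n + m))))).map
        (fun p : (Fin n → Vec d) × (Fin m → Vec (n + m)) =>
          (Fin.append (fun j : Fin n => rowCo c (p.1 j)) p.2 : Fin (n + m) → Vec (n + m)))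
      = Measure.pi (fun _ : Fin (n + m) => stdGaussian (Vec (n + m))) := by
  have h1 : (fun p : (Fin n → Vec d) × (Fin m → Vec (n + m)) =>
      (Fin.append (fun j : Fin n => rowCo c (p.1 j)) p.2 : Fin (n + m) → Vec (n + m)))
      = (fun q : (Fin n → Vec (n + m)) × (Fin m → Vec (n + m)) =>
          (Fin.append q.1 q.2 : Fin (n + m) → Vec (n + m))) ∘
        (Prod.map (fun X : Fin n → Vec d => fun j : Fin n => rowCo c (X j)) id) := rfl
  rw [h1, ← Measure.map_map (measurable_fin_append n m)
    ((rwf_measurable_rows c).prodMap measurable_id),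
    ← Measure.map_prod_map _ _ (rwf_measurable_rows c) measurable_id, rwf_rows_law c hc,
    Measure.map_id, pi_append_law]

/-- The law of the frame adapted to the rows is the frame law. -/
theorem lintegral_rowFr {d n m : ℕ} (c : Fin (n + m) → Vec d) (hc : Orthonormal ℝ c)
    (G : (Fin (n + m) → Vec (n + m)) → ℝ≥0∞) (hG : Measurable G) :
    ∫⁻ X, ∫⁻ h, G (rowFr c X h) ∂(Measure.pi (fun _ : Fin m => stdGaussian (Vec (n + m))))
        ∂(Measure.pi (fun _ : Fin n => stdGaussian (Vec d)))
      = ∫⁻ e, G e ∂(frameLaw (n + m) (n + m)) := by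
  have hmeas : Measurable (fun p : (Fin n → Vec d) × (Fin m → Vec (n + m)) =>
      G (rowFr c p.1 p.2)) := hG.comp (measurable_rowFr c)
  rw [← lintegral_prod (fun p : (Fin n → Vec d) × (Fin m → Vec (n + m)) =>
    G (rowFr c p.1 p.2)) hmeas.aemeasurable]
  have h2 : ∫⁻ p : (Fin n → Vec d) × (Fin m → Vec (n + m)), G (rowFr c p.1 p.2)
      ∂((Measure.pi (fun _ : Fin n => stdGaussian (Vec d))).prod
        (Measure.pi (fun _ : Fin m => stdGaussian (Vec (n + m)))))
      = ∫⁻ w, G (gsN w) ∂(((Measure.pi (fun _ : Fin n => stdGaussian (Vec d))).prod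
        (Measure.pi (fun _ : Fin m => stdGaussian (Vec (n + m))))).map
        (fun p : (Fin n → Vec d) × (Fin m → Vec (n + m)) =>
          (Fin.append (fun j : Fin n => rowCo c (p.1 j)) p.2 : Fin (n + m) → Vec (n + m)))) := by
    have hGg : Measurable (fun w : Fin (n + m) → Vec (n + m) => G (gsN w)) :=
      hG.comp measurable_gsN
    rw [lintegral_map hGg (rwf_measurable_psi c)]
    rfl
  rw [h2, rwf_psi_law c hc]
  unfold frameLaw
  rw [lintegral_map hG measurable_gsN]

/-- Almost surely the frame adapted to the rows is orthonormal. -/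
theorem rowFr_ae_orthonormal {d n m : ℕ} (c : Fin (n + m) → Vec d) (hc : Orthonormal ℝ c) :
    ∀ᵐ X ∂(Measure.pi (fun _ : Fin n => stdGaussian (Vec d))),
      ∀ᵐ h ∂(Measure.pi (fun _ : Fin m => stdGaussian (Vec (n + m)))),
        Orthonormal ℝ (rowFr c X h) := by
  have hli := ae_linearIndependent_gaussian_le (d := n + m) (n := n + m) (le_refl _)
  rw [← rwf_psi_law c hc] at hli
  have hset : MeasurableSet {w : Fin (n + m) → Vec (n + m) | LinearIndependent ℝ w} :=
    (isOpen_setOfPred_linearIndependent (𝕜 := ℝ) (E := Vec (n + m))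
      (ι := Fin (n + m))).measurableSet
  have hprod := (ae_map_iff (rwf_measurable_psi c).aemeasurable hset).mp hli
  have hiter := Measure.ae_ae_of_ae_prod hprod
  filter_upwards [hiter] with X hX
  filter_upwards [hX] with h hh
  exact gsN_orthonormal hh

end Vale.Agent.Lib.P309
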