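import Mathlib

namespace Vale.Agent.Lib.P309

open MeasureTheory ProbabilityTheory Metric Set
open scoped ENNReal

/-- The real inequality behind the dyadic decomposition: the `i`-th dyadic layer contributes
at most `C 2^(k + D) (1/2)^i`. -/
theorem dyadicAux_real (C : ℝ) (hC : 0 ≤ C) (k D : ℕ) (hkD : D + 1 ≤ k) (i : ℕ) :
    (2 : ℝ) ^ ((i + 1) * D) * (C * (2 * (1 / 2) ^ i) ^ k) ≤
      C * 2 ^ (k + D) * (1 / 2) ^ i := by
  have h1 : (2 : ℝ) ^ D * (1 / 2) ^ k ≤ 1 / 2 := by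
    have h0 : ((1 : ℝ) / 2) ^ k ≤ (1 / 2) ^ (D + 1) :=
      pow_le_pow_of_le_one (by norm_num) (by norm_num) hkD
    calc (2 : ℝ) ^ D * (1 / 2) ^ k ≤ 2 ^ D * (1 / 2) ^ (D + 1) :=
          mul_le_mul_of_nonneg_left h0 (by positivity)
      _ = (2 * (1 / 2)) ^ D * (1 / 2) := by rw [pow_succ, mul_pow]; ring
      _ = 1 / 2 := by norm_num
  have h2 : ((2 : ℝ) ^ D * (1 / 2) ^ k) ^ i ≤ (1 / 2) ^ i :=
    pow_le_pow_left₀ (by positivity) h1 i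
  have e : (2 : ℝ) ^ ((i + 1) * D) * (C * (2 * (1 / 2) ^ i) ^ k) =
      C * 2 ^ (k + D) * ((2 : ℝ) ^ D * (1 / 2) ^ k) ^ i := by
    ring
  rw [e]
  exact mul_le_mul_of_nonneg_left h2 (by positivity)

/-- Powers of one half in the extended nonnegative reals. -/
theorem dyadicAux_half_pow (n : ℕ) :
    ENNReal.ofReal ((1 / 2 : ℝ) ^ n) = ((2 : ℝ≥0∞) ^ n)⁻¹ := by
  rw [ENNReal.ofReal_pow (by norm_num), one_div,
    ENNReal.ofReal_inv_of_pos (by norm_num), ENNReal.ofReal_ofNat, ENNReal.inv_pow]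

/-- Negative moments from a small-ball bound, by a dyadic decomposition: if `ρ` takes its
values in `[0, 1]` and `ν {ρ ≤ t} ≤ C (2 t)^k` for all `t ≥ 0`, then for `D < k` the mean of
`ρ^(-D)` is at most `C 2^(k + D + 1)`. -/
theorem dyadic_moment {Ω : Type*} [MeasurableSpace Ω] (ν : Measure Ω) [IsProbabilityMeasure ν]
    (ρ : Ω → ℝ) (hρm : Measurable ρ) (hρ0 : ∀ ω, 0 ≤ ρ ω) (hρ1 : ∀ ω, ρ ω ≤ 1) (C : ℝ)
    (hC : 0 ≤ C) (k D : ℕ) (hkD : D + 1 ≤ k)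
    (hsb : ∀ t : ℝ, 0 ≤ t → ν {ω | ρ ω ≤ t} ≤ ENNReal.ofReal (C * (2 * t) ^ k)) :
    ∫⁻ ω, ((ENNReal.ofReal (ρ ω))⁻¹) ^ D ∂ν ≤ ENNReal.ofReal (C * 2 ^ (k + D + 1)) := by
  classical
  have hnull : ν {ω | ρ ω ≤ 0} = 0 := by
    have h0 := hsb 0 le_rfl
    have hk : k ≠ 0 := by omega
    rw [mul_zero, zero_pow hk, mul_zero, ENNReal.ofReal_zero] at h0
    exact le_antisymm h0 zero_le
  have hS : ∀ i : ℕ, MeasurableSet {ω | ρ ω ≤ (1 / 2 : ℝ) ^ i} :=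
    fun i => measurableSet_le hρm measurable_const
  have hpt : ∀ᵐ ω ∂ν, ((ENNReal.ofReal (ρ ω))⁻¹) ^ D ≤
      ∑' i : ℕ, ({ω | ρ ω ≤ (1 / 2 : ℝ) ^ i} : Set Ω).indicator
        (fun _ => (2 : ℝ≥0∞) ^ ((i + 1) * D)) ω := by
    have hae : ∀ᵐ ω ∂ν, ω ∉ {ω | ρ ω ≤ 0} := measure_eq_zero_iff_ae_notMem.1 hnull
    filter_upwards [hae] with ω hω
    have hpos : 0 < ρ ω := lt_of_le_of_ne (hρ0 ω) (fun h => hω (le_of_eq h.symm))
    have hex : ∃ i : ℕ, (1 / 2 : ℝ) ^ (i + 1) < ρ ω := by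
      obtain ⟨n, hn⟩ := exists_pow_lt_of_lt_one hpos (by norm_num : (1 / 2 : ℝ) < 1)
      exact ⟨n, lt_of_le_of_lt
        (pow_le_pow_of_le_one (by norm_num) (by norm_num) (Nat.le_succ n)) hn⟩
    have hi : (1 / 2 : ℝ) ^ (Nat.find hex + 1) < ρ ω := Nat.find_spec hex
    have hmem : ρ ω ≤ (1 / 2 : ℝ) ^ (Nat.find hex) := by
      rcases Nat.eq_zero_or_pos (Nat.find hex) with h0 | h0
      · rw [h0, pow_zero]
        exact hρ1 ω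
      · have hmin := Nat.find_min hex (Nat.sub_one_lt_of_lt h0)
        rw [Nat.sub_add_cancel h0] at hmin
        exact not_lt.1 hmin
    have hmem' : ω ∈ ({ω | ρ ω ≤ (1 / 2 : ℝ) ^ (Nat.find hex)} : Set Ω) := hmem
    have hinv : (ENNReal.ofReal (ρ ω))⁻¹ ≤ (2 : ℝ≥0∞) ^ (Nat.find hex + 1) := by
      have h1 : ENNReal.ofReal ((1 / 2 : ℝ) ^ (Nat.find hex + 1)) ≤ ENNReal.ofReal (ρ ω) :=
        ENNReal.ofReal_le_ofReal hi.le
      rw [dyadicAux_half_pow] at h1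
      calc (ENNReal.ofReal (ρ ω))⁻¹ ≤ (((2 : ℝ≥0∞) ^ (Nat.find hex + 1))⁻¹)⁻¹ :=
            ENNReal.inv_le_inv.2 h1
        _ = 2 ^ (Nat.find hex + 1) := inv_inv _
    calc ((ENNReal.ofReal (ρ ω))⁻¹) ^ D ≤ ((2 : ℝ≥0∞) ^ (Nat.find hex + 1)) ^ D :=
          pow_le_pow_left' hinv D
      _ = (2 : ℝ≥0∞) ^ ((Nat.find hex + 1) * D) := (pow_mul _ _ _).symm
      _ = ({ω | ρ ω ≤ (1 / 2 : ℝ) ^ (Nat.find hex)} : Set Ω).indicator
            (fun _ => (2 : ℝ≥0∞) ^ ((Nat.find hex + 1) * D)) ω :=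
          (Set.indicator_of_mem hmem' (fun _ => (2 : ℝ≥0∞) ^ ((Nat.find hex + 1) * D))).symm
      _ ≤ ∑' j : ℕ, ({ω | ρ ω ≤ (1 / 2 : ℝ) ^ j} : Set Ω).indicator
            (fun _ => (2 : ℝ≥0∞) ^ ((j + 1) * D)) ω :=
          ENNReal.le_tsum (f := fun j : ℕ => ({ω | ρ ω ≤ (1 / 2 : ℝ) ^ j} : Set Ω).indicator
            (fun _ => (2 : ℝ≥0∞) ^ ((j + 1) * D)) ω) (Nat.find hex)
  calc ∫⁻ ω, ((ENNReal.ofReal (ρ ω))⁻¹) ^ D ∂ν
      ≤ ∫⁻ ω, ∑' i : ℕ, ({ω | ρ ω ≤ (1 / 2 : ℝ) ^ i} : Set Ω).indicator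
          (fun _ => (2 : ℝ≥0∞) ^ ((i + 1) * D)) ω ∂ν := lintegral_mono_ae hpt
    _ = ∑' i : ℕ, ∫⁻ ω, ({ω | ρ ω ≤ (1 / 2 : ℝ) ^ i} : Set Ω).indicator
          (fun _ => (2 : ℝ≥0∞) ^ ((i + 1) * D)) ω ∂ν :=
        lintegral_tsum (fun i => (measurable_const.indicator (hS i)).aemeasurable)
    _ = ∑' i : ℕ, (2 : ℝ≥0∞) ^ ((i + 1) * D) * ν {ω | ρ ω ≤ (1 / 2 : ℝ) ^ i} := by
        refine tsum_congr (fun i => ?_)
        rw [lintegral_indicator_const (hS i)]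
    _ ≤ ∑' i : ℕ, ENNReal.ofReal (C * 2 ^ (k + D)) * (2⁻¹ : ℝ≥0∞) ^ i := by
        refine ENNReal.tsum_le_tsum (fun i => ?_)
        have h1 : ν {ω | ρ ω ≤ (1 / 2 : ℝ) ^ i} ≤
            ENNReal.ofReal (C * (2 * (1 / 2) ^ i) ^ k) := hsb _ (by positivity)
        have h2 : (2 : ℝ≥0∞) ^ ((i + 1) * D) = ENNReal.ofReal ((2 : ℝ) ^ ((i + 1) * D)) := by
          rw [ENNReal.ofReal_pow (by norm_num), ENNReal.ofReal_ofNat]
        have h3 : (2⁻¹ : ℝ≥0∞) ^ i = ENNReal.ofReal ((1 / 2 : ℝ) ^ i) := by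
          rw [ENNReal.ofReal_pow (by norm_num), one_div,
            ENNReal.ofReal_inv_of_pos (by norm_num), ENNReal.ofReal_ofNat]
        calc (2 : ℝ≥0∞) ^ ((i + 1) * D) * ν {ω | ρ ω ≤ (1 / 2 : ℝ) ^ i}
            ≤ ENNReal.ofReal ((2 : ℝ) ^ ((i + 1) * D)) *
                ENNReal.ofReal (C * (2 * (1 / 2) ^ i) ^ k) := by
              rw [h2]
              exact mul_le_mul_right h1 _
          _ = ENNReal.ofReal ((2 : ℝ) ^ ((i + 1) * D) * (C * (2 * (1 / 2) ^ i) ^ k)) :=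
              (ENNReal.ofReal_mul (by positivity)).symm
          _ ≤ ENNReal.ofReal (C * 2 ^ (k + D) * (1 / 2) ^ i) :=
              ENNReal.ofReal_le_ofReal (dyadicAux_real C hC k D hkD i)
          _ = ENNReal.ofReal (C * 2 ^ (k + D)) * (2⁻¹ : ℝ≥0∞) ^ i := by
              rw [ENNReal.ofReal_mul (by positivity), h3]
    _ = ENNReal.ofReal (C * 2 ^ (k + D)) * 2 := by
        rw [ENNReal.tsum_mul_left, ENNReal.tsum_geometric, ENNReal.one_sub_inv_two, inv_inv]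
    _ = ENNReal.ofReal (C * 2 ^ (k + D + 1)) := by
        have e : C * 2 ^ (k + D + 1) = C * 2 ^ (k + D) * 2 := by ring
        rw [e, ENNReal.ofReal_mul (by positivity : (0 : ℝ) ≤ C * 2 ^ (k + D)),
          ENNReal.ofReal_ofNat]

end Vale.Agent.Lib.P309
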