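import Vale.Agent.Lib.P309.Prof.Basic

namespace Vale.Agent.Lib.P309

open MeasureTheory ProbabilityTheory Metric Set
open scoped ENNReal

/-- Expansion of the inner product of a vector with a combination. -/
lemma lblaux_inner_mix {K : ℕ} (ξ γ : Vec K) (e : Fin K → Vec K) :
    inner ℝ ξ (mix γ e) = ∑ l, γ l * inner ℝ ξ (e l) := by
  unfold mix
  rw [inner_sum]
  refine Finset.sum_congr rfl (fun l _ => ?_)
  rw [real_inner_smul_right]

/-- The coordinate vector of a row is orthogonal to the last `m` vectors of the adapted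
frame. -/
lemma lblaux_tail_zero {d n m : ℕ} (c : Fin (n + m) → Vec d) (X : Fin n → Vec d)
    (h : Fin m → Vec (n + m)) (j : Fin n) (i : Fin m) :
    inner ℝ (rowCo c (X j)) (rowFr c X h (Fin.natAdd n i)) = 0 := by
  have hξ : rowCo c (X j)
      = (Fin.append (fun j : Fin n => rowCo c (X j)) h) (Fin.castAdd m j) := by
    rw [Fin.append_left]
  have hlt : Fin.castAdd m j < Fin.natAdd n i := by
    rw [Fin.lt_def]
    simp only [Fin.val_castAdd, Fin.val_natAdd]
    omega
  have hgs := gsN_inner_of_lt (Fin.append (fun j : Fin n => rowCo c (X j)) h) hlt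
  rw [real_inner_comm, hξ]
  exact hgs

/-- The coordinate vector of a row only sees the first `n` coordinates in the adapted
frame. -/
lemma lblaux_key {d n m : ℕ} (c : Fin (n + m) → Vec d) (X : Fin n → Vec d)
    (h : Fin m → Vec (n + m)) (γ γ' : Vec (n + m)) (hhd : hdV γ' = hdV γ) (j : Fin n) :
    inner ℝ (rowCo c (X j)) (mix γ' (rowFr c X h))
      = inner ℝ (rowCo c (X j)) (mix γ (rowFr c X h)) := by
  rw [lblaux_inner_mix, lblaux_inner_mix, Fin.sum_univ_add, Fin.sum_univ_add]
  have hco : ∀ i : Fin n, γ' (Fin.castAdd m i) = γ (Fin.castAdd m i) := by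
    intro i
    have := congrArg (fun v : Vec n => v i) hhd
    simpa [hdV] using this
  congr 1
  · refine Finset.sum_congr rfl (fun i _ => ?_)
    rw [hco i]
  · rw [Finset.sum_eq_zero (fun i _ => ?_), Finset.sum_eq_zero (fun i _ => ?_)]
    · rw [lblaux_tail_zero, mul_zero]
    · rw [lblaux_tail_zero, mul_zero]

/-- The labels of the rows `X` only see the first `n` coordinates and the norm of the
coordinate vector in the frame adapted to the rows. -/
theorem labels_eq {d n m : ℕ} (s₀ : Sph d) (c : Fin (n + m) → Vec d) (z : Vec d) (r : ℝ)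
    (hsub : IsSub c z r) (X : Fin n → Vec d) (h : Fin m → Vec (n + m))
    (he : Orthonormal ℝ (rowFr c X h)) (γ γ' : Vec (n + m)) (hhd : hdV γ' = hdV γ)
    (hnorm : ‖γ'‖ = ‖γ‖) (j : Fin n) :
    inner ℝ (X j) ((subPt s₀ c z r (mix γ' (rowFr c X h)) : Sph d) : Vec d)
      = inner ℝ (X j) ((subPt s₀ c z r (mix γ (rowFr c X h)) : Sph d) : Vec d) := by
  by_cases hγ : γ = 0
  · have hγ' : γ' = 0 := by
      rw [← norm_eq_zero, hnorm, hγ, norm_zero]
    rw [hγ, hγ']
  · have hγ' : γ' ≠ 0 := by
      intro h0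
      apply hγ
      rw [← norm_eq_zero, ← hnorm, h0, norm_zero]
    have hm : mix γ (rowFr c X h) ≠ 0 := by
      rw [← norm_ne_zero_iff, norm_mix he]
      exact norm_ne_zero_iff.2 hγ
    have hm' : mix γ' (rowFr c X h) ≠ 0 := by
      rw [← norm_ne_zero_iff, norm_mix he]
      exact norm_ne_zero_iff.2 hγ'
    rw [coe_subPt s₀ hsub hm, coe_subPt s₀ hsub hm', inner_add_right, inner_add_right,
      real_inner_smul_right, real_inner_smul_right, inner_mix_rowCo, inner_mix_rowCo]
    have hd : ∀ v : Vec (n + m), inner ℝ (rowCo c (X j)) (dirV (mix v (rowFr c X h)))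
        = ‖v‖⁻¹ * inner ℝ (rowCo c (X j)) (mix v (rowFr c X h)) := by
      intro v
      unfold dirV
      rw [real_inner_smul_right, norm_mix he]
    rw [hd γ, hd γ', hnorm, lblaux_key c X h γ γ' hhd j]

end Vale.Agent.Lib.P309
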