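import Mathlib

namespace Vale.Agent.Lib.P309

open MeasureTheory ProbabilityTheory Metric Set
open scoped ENNReal

/-- The mean of `exp (x^2 / 2 - b x^2)` under the standard Gaussian, for `b > 0`. -/
theorem rsb1dAux_main {b : ℝ} (hb : 0 < b) :
    ∫⁻ x : ℝ, ENNReal.ofReal (Real.exp (x ^ 2 / 2 - b * x ^ 2)) ∂(gaussianReal 0 1)
      = ENNReal.ofReal ((Real.sqrt (2 * Real.pi))⁻¹ * Real.sqrt (Real.pi / b)) := by
  have hv : (1 : NNReal) ≠ 0 := one_ne_zero
  have hmeas : Measurable fun x : ℝ => ENNReal.ofReal (Real.exp (x ^ 2 / 2 - b * x ^ 2)) := by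
    fun_prop
  rw [gaussianReal_of_var_ne_zero 0 hv,
    lintegral_withDensity_eq_lintegral_mul _ (measurable_gaussianPDF 0 1) hmeas]
  have h1 : ∀ x : ℝ,
      (gaussianPDF 0 1 * fun x => ENNReal.ofReal (Real.exp (x ^ 2 / 2 - b * x ^ 2))) x
        = ENNReal.ofReal ((Real.sqrt (2 * Real.pi))⁻¹ * Real.exp (-b * x ^ 2)) := by
    intro x
    have h2 : gaussianPDF 0 1 x
        = ENNReal.ofReal ((Real.sqrt (2 * Real.pi))⁻¹ * Real.exp (-(x ^ 2 / 2))) := by
      rw [gaussianPDF, gaussianPDFReal]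
      congr 2
      · simp
      · congr 1
        simp
        ring
    rw [Pi.mul_apply, h2, ← ENNReal.ofReal_mul (by positivity), mul_assoc, ← Real.exp_add]
    congr 3
    ring
  rw [lintegral_congr h1, ← ofReal_integral_eq_lintegral_ofReal]
  · rw [integral_const_mul, integral_gaussian]
  · exact (integrable_exp_neg_mul_sq hb).const_mul _
  · exact Filter.Eventually.of_forall (fun x => by positivity)

/-- A Gaussian exponential moment: the mean of `exp (x^2 / 4)` is `sqrt 2 ≤ 2`. -/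
theorem gauss1d_exp_quarter :
    ∫⁻ x : ℝ, ENNReal.ofReal (Real.exp (x ^ 2 / 4)) ∂(gaussianReal 0 1) ≤ 2 := by
  have h := rsb1dAux_main (b := 1 / 4) (by norm_num)
  have h0 : ∀ x : ℝ, ENNReal.ofReal (Real.exp (x ^ 2 / 4))
      = ENNReal.ofReal (Real.exp (x ^ 2 / 2 - 1 / 4 * x ^ 2)) := by
    intro x
    congr 2
    ring
  rw [lintegral_congr h0, h]
  have hval : (Real.sqrt (2 * Real.pi))⁻¹ * Real.sqrt (Real.pi / (1 / 4)) ≤ 2 := by
    have hpi : 0 < Real.pi := Real.pi_pos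
    have hA : Real.sqrt (2 * Real.pi) ≠ 0 := by positivity
    have e : Real.pi / (1 / 4) = 2 * (2 * Real.pi) := by ring
    have e2 : Real.sqrt (2 * (2 * Real.pi)) = Real.sqrt 2 * Real.sqrt (2 * Real.pi) :=
      Real.sqrt_mul (by norm_num) _
    have e3 : (Real.sqrt (2 * Real.pi))⁻¹ * (Real.sqrt 2 * Real.sqrt (2 * Real.pi))
        = Real.sqrt 2 := by
      field_simp
    rw [e, e2, e3, Real.sqrt_le_iff]
    constructor <;> norm_num
  calc ENNReal.ofReal ((Real.sqrt (2 * Real.pi))⁻¹ * Real.sqrt (Real.pi / (1 / 4)))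
      ≤ ENNReal.ofReal 2 := ENNReal.ofReal_le_ofReal hval
    _ = 2 := by norm_num

/-- A Gaussian exponential moment: the mean of `exp (- s x^2)` is
`1 / sqrt (1 + 2 s) ≤ 1 / sqrt (2 s)`. -/
theorem gauss1d_exp_neg {s : ℝ} (hs : 0 < s) :
    ∫⁻ x : ℝ, ENNReal.ofReal (Real.exp (-(s * x ^ 2))) ∂(gaussianReal 0 1)
      ≤ ENNReal.ofReal (1 / Real.sqrt (2 * s)) := by
  have h := rsb1dAux_main (b := s + 1 / 2) (by positivity)
  have h0 : ∀ x : ℝ, ENNReal.ofReal (Real.exp (-(s * x ^ 2)))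
      = ENNReal.ofReal (Real.exp (x ^ 2 / 2 - (s + 1 / 2) * x ^ 2)) := by
    intro x
    congr 2
    ring
  rw [lintegral_congr h0, h]
  apply ENNReal.ofReal_le_ofReal
  have hpi : 0 < Real.pi := Real.pi_pos
  have hA : Real.sqrt (2 * Real.pi) ≠ 0 := by positivity
  have e : Real.pi / (s + 1 / 2) = (2 * Real.pi) * (2 * s + 1)⁻¹ := by
    field_simp
  have e2 : Real.sqrt ((2 * Real.pi) * (2 * s + 1)⁻¹)
      = Real.sqrt (2 * Real.pi) * (Real.sqrt (2 * s + 1))⁻¹ := by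
    rw [Real.sqrt_mul (by positivity : (0 : ℝ) ≤ 2 * Real.pi), Real.sqrt_inv]
  have e3 : (Real.sqrt (2 * Real.pi))⁻¹ * (Real.sqrt (2 * Real.pi) * (Real.sqrt (2 * s + 1))⁻¹)
      = (Real.sqrt (2 * s + 1))⁻¹ := by
    rw [← mul_assoc, inv_mul_cancel₀ hA, one_mul]
  rw [e, e2, e3, one_div]
  apply inv_anti₀ (by positivity)
  apply Real.sqrt_le_sqrt
  linarith

end Vale.Agent.Lib.P309
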