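import Vale.Agent.Lib.P309.Prof.RowsFrame

namespace Vale.Agent.Lib.P309

open MeasureTheory ProbabilityTheory Metric Set
open scoped ENNReal

/-- Change of frame: the coordinate vector of the signal may be read in the frame adapted to
the rows. -/
theorem stage_frame_change {d n m : ℕ} (c : Fin (n + m) → Vec d) (hc : Orthonormal ℝ c)
    (F : (Fin n → Vec d) × Vec (n + m) → ℝ≥0∞) (hF : Measurable F) :
    ∫⁻ γ, ∫⁻ X, F (X, γ) ∂(Measure.pi (fun _ : Fin n => stdGaussian (Vec d)))
        ∂(stdGaussian (Vec (n + m)))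
      = ∫⁻ X, ∫⁻ h, ∫⁻ γ, F (X, mix γ (rowFr c X h)) ∂(stdGaussian (Vec (n + m)))
          ∂(Measure.pi (fun _ : Fin m => stdGaussian (Vec (n + m))))
          ∂(Measure.pi (fun _ : Fin n => stdGaussian (Vec d))) := by
  have hsw : Measurable (Function.uncurry fun (γ : Vec (n + m)) (X : Fin n → Vec d) => F (X, γ)) :=
    hF.comp measurable_swap
  rw [lintegral_lintegral_swap hsw.aemeasurable]
  refine lintegral_congr_ae ?_
  filter_upwards [rowFr_ae_orthonormal (m := m) c hc] with X hX
  have hcon : ∀ᵐ h ∂(Measure.pi (fun _ : Fin m => stdGaussian (Vec (n + m)))),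
      ∫⁻ γ, F (X, mix γ (rowFr c X h)) ∂(stdGaussian (Vec (n + m)))
        = ∫⁻ γ, F (X, γ) ∂(stdGaussian (Vec (n + m))) := by
    filter_upwards [hX] with h hh
    exact lintegral_gauss_mix (rowFr c X h) hh (fun γ => F (X, γ))
      (hF.comp measurable_prodMk_left)
  rw [lintegral_congr_ae hcon, lintegral_const, measure_univ, mul_one]

end Vale.Agent.Lib.P309
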